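import Mathlib

noncomputable section

namespace Vale.Agent.Lib.P201

universe u

variable {Γ : Type u} [Group Γ]

/-- A left translation preserving a nonempty finite set has finite order. -/
theorem isOfFinOrder_of_preserves {W : Γ} {S : Finset Γ} {c : Γ} (hc : c ∈ S)
    (hW : ∀ s ∈ S, W * s ∈ S) : IsOfFinOrder W := by
  have hmem : ∀ n : ℕ, W ^ n * c ∈ S := by
    intro n
    induction n with
    | zero => simpa using hc
    | succ n ih =>
      have := hW _ ih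
      rwa [← mul_assoc, ← pow_succ'] at this
  let f : ℕ → S := fun n => ⟨W ^ n * c, hmem n⟩
  obtain ⟨m, n, hne, he⟩ := Finite.exists_ne_map_eq_of_infinite f
  have he' : W ^ m * c = W ^ n * c := congrArg Subtype.val he
  have he2 : W ^ m = W ^ n := mul_right_cancel he'
  rw [isOfFinOrder_iff_pow_eq_one]
  rcases lt_or_gt_of_ne hne with h | h
  · refine ⟨n - m, by omega, ?_⟩
    have : W ^ n = W ^ m * W ^ (n - m) := by rw [← pow_add]; congr 1; omega
    rw [this] at he2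
    exact (mul_eq_left.mp he2.symm)
  · refine ⟨m - n, by omega, ?_⟩
    have : W ^ m = W ^ n * W ^ (m - n) := by rw [← pow_add]; congr 1; omega
    rw [this] at he2
    exact (mul_eq_left.mp he2)

/-- Chains of left translations by `U` inside a finite set, with a class structure. -/
structure ChainData (F : Finset Γ) (U : Γ) (G₁ G₂ : Γ → Prop) (E : Γ → Γ → Prop) : Prop where
  inf : ¬ IsOfFinOrder U
  mem₁ : ∀ b, G₁ b → b ∈ F
  mem₂ : ∀ b, G₂ b → b ∈ F
  fwd : ∀ b, G₁ b → G₂ (U * b)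
  bwd : ∀ b, G₂ b → G₁ (U⁻¹ * b)
  Esymm : ∀ b b', E b b' → E b' b
  Efwd : ∀ b b', E b b' → E (U * b) (U * b')
  Ebwd : ∀ b b', E b b' → E (U⁻¹ * b) (U⁻¹ * b')
  sat₁ : ∀ b b', G₁ b → b' ∈ F → E b b' → G₁ b'
  sat₂ : ∀ b b', G₂ b → b' ∈ F → E b b' → G₂ b'
  bad₂ : ∀ b b', b ∈ F → b' ∈ F → ¬ G₂ b → ¬ G₂ b' → E b b'

namespace ChainData

variable {F : Finset Γ} {U : Γ} {G₁ G₂ : Γ → Prop} {E : Γ → Γ → Prop}

theorem exists_exit (h : ChainData F U G₁ G₂ E) (b : Γ) : ∃ s : ℕ, ¬ G₂ (U⁻¹ ^ s * b) := by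
  by_contra hcon
  push Not at hcon
  let f : ℕ → F := fun s => ⟨U⁻¹ ^ s * b, h.mem₂ _ (hcon s)⟩
  obtain ⟨m, n, hne, he⟩ := Finite.exists_ne_map_eq_of_infinite f
  have he' : U⁻¹ ^ m * b = U⁻¹ ^ n * b := congrArg Subtype.val he
  have he2 : U⁻¹ ^ m = U⁻¹ ^ n := mul_right_cancel he'
  apply h.inf
  rw [← isOfFinOrder_inv_iff, isOfFinOrder_iff_pow_eq_one]
  rcases lt_or_gt_of_ne hne with h' | h'
  · refine ⟨n - m, by omega, ?_⟩
    have : U⁻¹ ^ n = U⁻¹ ^ m * U⁻¹ ^ (n - m) := by rw [← pow_add]; congr 1; omega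
    rw [this] at he2
    exact (mul_eq_left.mp he2.symm)
  · refine ⟨m - n, by omega, ?_⟩
    have : U⁻¹ ^ m = U⁻¹ ^ n * U⁻¹ ^ (m - n) := by rw [← pow_add]; congr 1; omega
    rw [this] at he2
    exact (mul_eq_left.mp he2)

open Classical in
/-- The position of an element along its chain. -/
def pos (h : ChainData F U G₁ G₂ E) (b : Γ) : ℕ := Nat.find (h.exists_exit b)

theorem pos_eq_zero (h : ChainData F U G₁ G₂ E) {b : Γ} (hb : ¬ G₂ b) : h.pos b = 0 := by
  classical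
  unfold pos
  rw [Nat.find_eq_zero]
  simpa using hb

theorem pos_succ (h : ChainData F U G₁ G₂ E) {b : Γ} (hb : G₂ b) :
    h.pos b = h.pos (U⁻¹ * b) + 1 := by
  classical
  unfold pos
  have h0 : Nat.find (h.exists_exit b) ≠ 0 := by
    rw [Ne, Nat.find_eq_zero]
    simpa using hb
  obtain ⟨n, hn⟩ := Nat.exists_eq_succ_of_ne_zero h0
  rw [hn]
  congr 1
  symm
  rw [Nat.find_eq_iff]
  have hs := Nat.find_spec (h.exists_exit b)
  have hm := fun k (hk : k < Nat.find (h.exists_exit b)) => Nat.find_min (h.exists_exit b) hk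
  rw [hn] at hs hm
  constructor
  · rw [← mul_assoc, ← pow_succ]
    exact hs
  · intro k hk
    rw [← mul_assoc, ← pow_succ]
    exact hm (k + 1) (by omega)

theorem pos_fwd (h : ChainData F U G₁ G₂ E) {b : Γ} (hb : G₁ b) :
    h.pos (U * b) = h.pos b + 1 := by
  rw [h.pos_succ (h.fwd b hb), inv_mul_cancel_left]

theorem mem₂_of_pos_pos (h : ChainData F U G₁ G₂ E) {b : Γ} (hb : 0 < h.pos b) : G₂ b := by
  by_contra hcon
  rw [h.pos_eq_zero hcon] at hb
  exact lt_irrefl _ hb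

theorem pos_eq_of_E (h : ChainData F U G₁ G₂ E) :
    ∀ (n : ℕ) (b b' : Γ), h.pos b = n → b ∈ F → b' ∈ F → E b b' → h.pos b' = n := by
  intro n
  induction n with
  | zero =>
    intro b b' hn hb hb' hE
    by_cases hg : G₂ b'
    · have h1 : G₂ b := h.sat₂ _ _ hg hb (h.Esymm _ _ hE)
      rw [h.pos_succ h1] at hn
      omega
    · exact h.pos_eq_zero hg
  | succ n ih =>
    intro b b' hn hb hb' hE
    have hg : G₂ b := h.mem₂_of_pos_pos (by omega)
    have hg' : G₂ b' := h.sat₂ _ _ hg hb' hE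
    rw [h.pos_succ hg] at hn
    rw [h.pos_succ hg']
    have := ih _ _ (by omega) (h.mem₁ _ (h.bwd _ hg)) (h.mem₁ _ (h.bwd _ hg')) (h.Ebwd _ _ hE)
    omega

theorem E_of_pos_eq (h : ChainData F U G₁ G₂ E) :
    ∀ (n : ℕ) (b b' : Γ), h.pos b = n → h.pos b' = n → b ∈ F → b' ∈ F → E b b' := by
  intro n
  induction n with
  | zero =>
    intro b b' hn hn' hb hb'
    refine h.bad₂ _ _ hb hb' ?_ ?_
    · intro hg
      rw [h.pos_succ hg] at hn
      omega
    · intro hg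
      rw [h.pos_succ hg] at hn'
      omega
  | succ n ih =>
    intro b b' hn hn' hb hb'
    have hg : G₂ b := h.mem₂_of_pos_pos (by omega)
    have hg' : G₂ b' := h.mem₂_of_pos_pos (by omega)
    rw [h.pos_succ hg] at hn
    rw [h.pos_succ hg'] at hn'
    have := ih _ _ (by omega) (by omega) (h.mem₁ _ (h.bwd _ hg)) (h.mem₁ _ (h.bwd _ hg'))
    have h2 := h.Efwd _ _ this
    rwa [mul_inv_cancel_left, mul_inv_cancel_left] at h2

/-- Going back to the start of a chain. -/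
theorem back_to_start (h : ChainData F U G₁ G₂ E) :
    ∀ (n : ℕ) (b : Γ), h.pos b = n → b ∈ F → U⁻¹ ^ n * b ∈ F ∧ ¬ G₂ (U⁻¹ ^ n * b) := by
  intro n
  induction n with
  | zero =>
    intro b hn hb
    rw [pow_zero, one_mul]
    refine ⟨hb, ?_⟩
    intro hg
    rw [h.pos_succ hg] at hn
    omega
  | succ n ih =>
    intro b hn hb
    have hg : G₂ b := h.mem₂_of_pos_pos (by omega)
    rw [h.pos_succ hg] at hn
    have := ih (U⁻¹ * b) (by omega) (h.mem₁ _ (h.bwd _ hg))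
    rwa [← mul_assoc, ← pow_succ] at this

/-- Going forward from the start of a chain. -/
theorem forward (h : ChainData F U G₁ G₂ E) :
    ∀ (p : ℕ) (c b : Γ), h.pos b = p → b ∈ F → c ∈ F → ¬ G₂ c → U ^ p * c ∈ F ∧ E (U ^ p * c) b := by
  intro p
  induction p with
  | zero =>
    intro c b hn hb hc hgc
    rw [pow_zero, one_mul]
    refine ⟨hc, h.bad₂ _ _ hc hb hgc ?_⟩
    intro hg
    rw [h.pos_succ hg] at hn
    omega
  | succ p ih =>
    intro c b hn hb hc hgc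
    have hg : G₂ b := h.mem₂_of_pos_pos (by omega)
    rw [h.pos_succ hg] at hn
    have hb' := h.bwd _ hg
    obtain ⟨h1, h2⟩ := ih c (U⁻¹ * b) (by omega) (h.mem₁ _ hb') hc hgc
    have hx : G₁ (U ^ p * c) := h.sat₁ _ _ hb' h1 (h.Esymm _ _ h2)
    have h3 := h.fwd _ hx
    have h4 := h.Efwd _ _ h2
    rw [mul_inv_cancel_left, ← mul_assoc, ← pow_succ'] at h4
    rw [← mul_assoc, ← pow_succ'] at h3
    exact ⟨h.mem₂ _ h3, h4⟩

/-- Every smaller position occurs. -/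
theorem exists_pos (h : ChainData F U G₁ G₂ E) :
    ∀ (n : ℕ) (b : Γ), h.pos b = n → b ∈ F → ∀ k ≤ n, ∃ y ∈ F, h.pos y = k := by
  intro n
  induction n with
  | zero =>
    intro b hn hb k hk
    exact ⟨b, hb, by omega⟩
  | succ n ih =>
    intro b hn hb k hk
    rcases Nat.lt_or_ge k (n + 1) with hlt | hge
    · have hg : G₂ b := h.mem₂_of_pos_pos (by omega)
      rw [h.pos_succ hg] at hn
      exact ih _ (by omega) (h.mem₁ _ (h.bwd _ hg)) k (by omega)
    · exact ⟨b, hb, by omega⟩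

/-- A second chain structure, translation by `V`, is translation by `U` or its inverse. -/
theorem main_chain (h : ChainData F U G₁ G₂ E) (ht : ∀ g : Γ, g ≠ 1 → ¬ IsOfFinOrder g) {V : Γ}
    {G₃ G₄ : Γ → Prop} (hV1 : V ≠ 1)
    (m₃ : ∀ b, G₃ b → b ∈ F) (m₄ : ∀ b, G₄ b → b ∈ F) (fwdV : ∀ b, G₃ b → G₄ (V * b))
    (EfV : ∀ b b', E b b' → E (V * b) (V * b'))
    (sat₃ : ∀ b b', G₃ b → b' ∈ F → E b b' → G₃ b')
    (bad₃ : ∀ b b', b ∈ F → b' ∈ F → ¬ G₃ b → ¬ G₃ b' → E b b')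
    {u₁ u₂ : Γ} (hu₁ : u₁ ∈ F) (hu₂ : u₂ ∈ F) (hne : ¬ E u₁ u₂) :
    ∃ b, G₃ b ∧ ((V = U ∧ G₁ b) ∨ (V = U⁻¹ ∧ G₂ b)) := by
  classical
  -- the start of a chain
  obtain ⟨hc₀F, hc₀⟩ := h.back_to_start _ u₁ rfl hu₁
  set c₀ := U⁻¹ ^ h.pos u₁ * u₁ with hc₀def
  -- the quotient formula
  have hformula : ∀ b, G₃ b → V = U ^ (((h.pos (V * b) : ℕ) : ℤ) - ((h.pos b : ℕ) : ℤ)) := by
    intro b hb
    set p := h.pos b with hp
    set p' := h.pos (V * b) with hp'
    set W := U⁻¹ ^ p' * V * U ^ p with hW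
    have hbF := m₃ _ hb
    have hVbF := m₄ _ (fwdV _ hb)
    have hpres : ∀ s ∈ F.filter (fun x => ¬ G₂ x), W * s ∈ F.filter (fun x => ¬ G₂ x) := by
      intro c hc
      rw [Finset.mem_filter] at hc
      obtain ⟨h1, h2⟩ := h.forward p c b hp.symm hbF hc.1 hc.2
      have hx : G₃ (U ^ p * c) := sat₃ _ _ hb h1 (h.Esymm _ _ h2)
      have h3 := fwdV _ hx
      have h4 := EfV _ _ h2
      have h5 : h.pos (V * (U ^ p * c)) = p' :=
        h.pos_eq_of_E p' (V * b) _ hp'.symm hVbF (m₄ _ h3) (h.Esymm _ _ h4)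
      obtain ⟨h6, h7⟩ := h.back_to_start p' _ h5 (m₄ _ h3)
      have e : W * c = U⁻¹ ^ p' * (V * (U ^ p * c)) := by
        rw [hW]; group
      rw [e, Finset.mem_filter]
      exact ⟨h6, h7⟩
    have hc₀mem : c₀ ∈ F.filter (fun x => ¬ G₂ x) := Finset.mem_filter.mpr ⟨hc₀F, hc₀⟩
    have hfo := isOfFinOrder_of_preserves hc₀mem hpres
    have hW1 : W = 1 := by
      by_contra hne1
      exact ht W hne1 hfo
    rw [hW] at hW1
    have : V = U ^ p' * U⁻¹ ^ p := by
      have h1 : V * U ^ p = U ^ p' := by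
        have h2 : U⁻¹ ^ p' * (V * U ^ p) = 1 := by
          rw [← hW1]; group
        rw [inv_pow] at h2
        exact (inv_mul_eq_one.mp h2).symm
      rw [inv_pow]
      exact eq_mul_inv_of_mul_eq h1
    rw [this, inv_pow, zpow_sub, zpow_natCast, zpow_natCast]
  have hinj := injective_zpow_iff_not_isOfFinOrder.mpr h.inf
  -- a point in the domain of `V`
  have hdom : ∃ b₀, G₃ b₀ := by
    by_contra hcon
    push Not at hcon
    exact hne (bad₃ _ _ hu₁ hu₂ (hcon _) (hcon _))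
  obtain ⟨b₀, hb₀⟩ := hdom
  set r : ℤ := ((h.pos (V * b₀) : ℕ) : ℤ) - ((h.pos b₀ : ℕ) : ℤ) with hr
  have hr_all : ∀ b, G₃ b → ((h.pos (V * b) : ℕ) : ℤ) = (h.pos b : ℕ) + r := by
    intro b hb
    have h1 := hformula b hb
    have h2 := hformula b₀ hb₀
    have h3 : U ^ (((h.pos (V * b) : ℕ) : ℤ) - ((h.pos b : ℕ) : ℤ)) = U ^ r := by
      rw [← h1, hr, ← h2]
    have h4 := hinj h3
    omega
  have hVr : V = U ^ r := hformula b₀ hb₀
  have hr0 : r ≠ 0 := by
    intro h0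
    rw [h0, zpow_zero] at hVr
    exact hV1 hVr
  have hposne : h.pos u₁ ≠ h.pos u₂ := by
    intro he
    exact hne (h.E_of_pos_eq _ _ _ rfl he.symm hu₁ hu₂)
  -- the top position
  obtain ⟨top, htopF, htop⟩ := Finset.exists_max_image F h.pos ⟨u₁, hu₁⟩
  have htop1 : 1 ≤ h.pos top := by
    have h1 := htop _ hu₁
    have h2 := htop _ hu₂
    omega
  have hrle : r ≤ 1 := by
    by_contra hcon
    push Not at hcon
    obtain ⟨y, hyF, hy⟩ := h.exists_pos _ top rfl htopF (h.pos top - 1) (by omega)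
    have hbad1 : ¬ G₃ top := by
      intro hg
      have h1 := hr_all _ hg
      have h2 := htop _ (m₄ _ (fwdV _ hg))
      omega
    have hbad2 : ¬ G₃ y := by
      intro hg
      have h1 := hr_all _ hg
      have h2 := htop _ (m₄ _ (fwdV _ hg))
      omega
    have hE := bad₃ _ _ htopF hyF hbad1 hbad2
    have := h.pos_eq_of_E _ _ _ rfl htopF hyF hE
    omega
  have hrge : -1 ≤ r := by
    by_contra hcon
    push Not at hcon
    obtain ⟨y₁, hy₁F, hy₁⟩ := h.exists_pos _ top rfl htopF 1 (by omega)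
    obtain ⟨y₀, hy₀F, hy₀⟩ := h.exists_pos _ top rfl htopF 0 (by omega)
    have hbad1 : ¬ G₃ y₁ := by
      intro hg
      have h1 := hr_all _ hg
      omega
    have hbad2 : ¬ G₃ y₀ := by
      intro hg
      have h1 := hr_all _ hg
      omega
    have hE := bad₃ _ _ hy₁F hy₀F hbad1 hbad2
    have := h.pos_eq_of_E _ _ _ rfl hy₁F hy₀F hE
    omega
  have hcases : r = 1 ∨ r = -1 := by omega
  refine ⟨b₀, hb₀, ?_⟩
  rcases hcases with h1 | h1
  · left
    have hVU : V = U := by rw [hVr, h1, zpow_one]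
    refine ⟨hVU, ?_⟩
    have h2 := hr_all _ hb₀
    have h3 : 0 < h.pos (V * b₀) := by omega
    have h4 := h.bwd _ (h.mem₂_of_pos_pos h3)
    rwa [hVU, inv_mul_cancel_left] at h4
  · right
    have hVU : V = U⁻¹ := by rw [hVr, h1, zpow_neg_one]
    refine ⟨hVU, ?_⟩
    have h2 := hr_all _ hb₀
    exact h.mem₂_of_pos_pos (by omega)

end ChainData

end Vale.Agent.Lib.P201
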