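import Mathlib

namespace Vale.Agent.Lib.P201

universe u v

/-- The four point condition, with constant zero, for a pseudo-metric space. R-trees and the
vertex set of a simplicial tree with its path metric are the basic examples. -/
def ZeroHyperbolic (X : Type u) [PseudoMetricSpace X] : Prop :=
  ∀ x y z w : X, dist x y + dist z w ≤ max (dist x z + dist y w) (dist x w + dist y z)

/-- The subgroup generated by all quotients `a⁻¹ * b` of two elements of `A`. -/
def diffSubgroup {G : Type u} [Group G] (A : Set G) : Subgroup G :=
  Subgroup.closure {g | ∃ a ∈ A, ∃ b ∈ A, g = a⁻¹ * b}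

/-- Fixed point properties of a group `H` for actions on trees: bounded orbits on every
0-hyperbolic pseudo-metric space, a global fixed point on every 0-hyperbolic metric space with
midpoints (an R-tree for instance), no nontrivial homomorphism to the reals, and a fixed vertex
or an invariant edge for every action by automorphisms on a simplicial tree. -/
def TreeRigid (H : Type u) [Group H] : Prop :=
  (∀ (X : Type v) [PseudoMetricSpace X], ZeroHyperbolic X →
    ∀ [MulAction H X] [IsIsometricSMul H X] (x : X), ∃ C : ℝ, ∀ g : H, dist (g • x) x ≤ C) ∧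
  (∀ (X : Type v) [MetricSpace X] [Nonempty X], ZeroHyperbolic X →
    (∀ x y : X, ∃ m : X, dist x m = dist x y / 2 ∧ dist y m = dist x y / 2) →
    ∀ [MulAction H X] [IsIsometricSMul H X], ∃ m : X, ∀ g : H, g • m = m) ∧
  (∀ f : H →* Multiplicative ℝ, f = 1) ∧
  (∀ (V : Type v) (T : SimpleGraph V), T.IsTree → ∀ [MulAction H V],
    (∀ (g : H) (x y : V), T.Adj x y → T.Adj (g • x) (g • y)) →
    (∃ m : V, ∀ g : H, g • m = m) ∨
      ∃ x y : V, T.Adj x y ∧ ∀ g : H, (g • x = x ∧ g • y = y) ∨ (g • x = y ∧ g • y = x))

end Vale.Agent.Lib.P201
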