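import Mathlib
import Vale.Agent.Lib.P201.Defs

noncomputable section

namespace Vale.Agent.Lib.P201

open MonoidAlgebra

universe u v w

/-- An invariant tree-like distance on a set with a group action. -/
structure IsTreeDist (Γ : Type u) {X : Type v} [Group Γ] [MulAction Γ X] (d : X → X → ℝ) :
    Prop where
  symm : ∀ x y, d x y = d y x
  tri : ∀ x y z, d x z ≤ d x y + d y z
  inv : ∀ (g : Γ) (x y : X), d (g • x) (g • y) = d x y
  four : ∀ x y z w, d x y + d z w ≤ max (d x z + d y w) (d x w + d y z)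

/-- No product of an element of `A` and an element of `B` is unique. -/
def NoUnique {G : Type u} [Group G] (A B : Finset G) : Prop :=
  ∀ a ∈ A, ∀ b ∈ B, ∃ a' ∈ A, ∃ b' ∈ B, a' ≠ a ∧ a' * b' = a * b

section

variable {Γ : Type u} {X : Type v} [Group Γ] [MulAction Γ X] {d : X → X → ℝ}

theorem zeta_le (h : IsTreeDist Γ d) {p q p' q' : X} {D : ℝ} (hD : d p q = D)
    (h1 : d p p' ≤ D) (h2 : d p q' ≤ D) (h3 : d q p' ≤ D) (h4 : d q q' ≤ D) (w : X) :
    max (d w p') (d w q') ≤ max (d w p) (d w q) := by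
  have key : ∀ r : X, d p r ≤ D → d q r ≤ D → d w r ≤ max (d w p) (d w q) := by
    intro r hp hq
    have hf := h.four p q w r
    rw [hD] at hf
    have h5 : d p w = d w p := h.symm _ _
    have h6 : d q w = d w q := h.symm _ _
    rw [h5, h6] at hf
    have h7 : d w p ≤ max (d w p) (d w q) := le_max_left _ _
    have h8 : d w q ≤ max (d w p) (d w q) := le_max_right _ _
    rcases le_max_iff.mp hf with h9 | h9 <;> linarith
  exact max_le (key _ h1 h3) (key _ h2 h4)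

/-- If multiplication by `A` does not increase the diameter of an orbit piece then the
radial function of a diametral pair is invariant under the quotients `a * a'⁻¹`. -/
theorem zeta_invariant (h : IsTreeDist Γ d) (A B : Finset Γ) (o : X) {b₁ b₂ : Γ} (hb₁ : b₁ ∈ B)
    (hb₂ : b₂ ∈ B) {a₀ : Γ} (ha₀ : a₀ ∈ A)
    (hdiam : ∀ a ∈ A, ∀ c ∈ B, ∀ a' ∈ A, ∀ c' ∈ B,
      d ((a * c) • o) ((a' * c') • o) ≤ d (b₁ • o) (b₂ • o))
    {a a' : Γ} (ha : a ∈ A) (ha' : a' ∈ A) (v : X) :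
    max (d ((a * a'⁻¹) • v) ((a₀ * b₁) • o)) (d ((a * a'⁻¹) • v) ((a₀ * b₂) • o))
      = max (d v ((a₀ * b₁) • o)) (d v ((a₀ * b₂) • o)) := by
  set D := d (b₁ • o) (b₂ • o) with hD
  -- the radial functions of all copies agree
  have hcopy : ∀ x ∈ A, ∀ y ∈ A, ∀ w : X,
      max (d w ((y * b₁) • o)) (d w ((y * b₂) • o))
        ≤ max (d w ((x * b₁) • o)) (d w ((x * b₂) • o)) := by
    intro x hx y hy w
    refine zeta_le h (D := D) ?_ ?_ ?_ ?_ ?_ w
    · rw [mul_smul, mul_smul, h.inv]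
    · exact hdiam x hx b₁ hb₁ y hy b₁ hb₁
    · exact hdiam x hx b₁ hb₁ y hy b₂ hb₂
    · exact hdiam x hx b₂ hb₂ y hy b₁ hb₁
    · exact hdiam x hx b₂ hb₂ y hy b₂ hb₂
  have hcopy' : ∀ x ∈ A, ∀ y ∈ A, ∀ w : X,
      max (d w ((y * b₁) • o)) (d w ((y * b₂) • o))
        = max (d w ((x * b₁) • o)) (d w ((x * b₂) • o)) := fun x hx y hy w =>
    le_antisymm (hcopy x hx y hy w) (hcopy y hy x hx w)
  have e1 : ∀ b : Γ, d ((a * a'⁻¹) • v) ((a * b) • o) = d (a'⁻¹ • v) (b • o) := by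
    intro b
    rw [mul_smul, mul_smul, h.inv]
  have e2 : ∀ b : Γ, d (a'⁻¹ • v) (b • o) = d v ((a' * b) • o) := by
    intro b
    have := h.inv a' (a'⁻¹ • v) (b • o)
    rw [smul_inv_smul, ← mul_smul] at this
    exact this.symm
  rw [hcopy' a ha a₀ ha₀, e1, e1, e2, e2, hcopy' a₀ ha₀ a' ha' v]

/-- Pigeonhole: if no product is unique and `A` has at most three elements then any two
products lie in a common left translate `a * B`. -/
theorem pigeon [DecidableEq Γ] {A B : Finset Γ} (hA : A.card ≤ 3) (hNU : NoUnique A B)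
    {a₁ a₂ c₁ c₂ : Γ} (ha₁ : a₁ ∈ A) (hc₁ : c₁ ∈ B) (ha₂ : a₂ ∈ A) (hc₂ : c₂ ∈ B) :
    ∃ a ∈ A, ∃ e₁ ∈ B, ∃ e₂ ∈ B, a * e₁ = a₁ * c₁ ∧ a * e₂ = a₂ * c₂ := by
  classical
  set S₁ := A.filter (fun a => a⁻¹ * (a₁ * c₁) ∈ B) with hS₁
  set S₂ := A.filter (fun a => a⁻¹ * (a₂ * c₂) ∈ B) with hS₂
  have two : ∀ a ∈ A, ∀ c ∈ B, 2 ≤ (A.filter (fun x => x⁻¹ * (a * c) ∈ B)).card := by
    intro a ha c hc
    obtain ⟨a', ha', b', hb', hne, heq⟩ := hNU a ha c hc
    have m1 : a ∈ A.filter (fun x => x⁻¹ * (a * c) ∈ B) := by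
      simp [ha, hc]
    have m2 : a' ∈ A.filter (fun x => x⁻¹ * (a * c) ∈ B) := by
      simp only [Finset.mem_filter]
      refine ⟨ha', ?_⟩
      rw [← heq, inv_mul_cancel_left]
      exact hb'
    exact Finset.one_lt_card.mpr ⟨a, m1, a', m2, hne.symm⟩
  have hS₁' : 2 ≤ S₁.card := two a₁ ha₁ c₁ hc₁
  have hS₂' : 2 ≤ S₂.card := two a₂ ha₂ c₂ hc₂
  have hnd : ¬ Disjoint S₁ S₂ := by
    intro hd
    have hu : (S₁ ∪ S₂).card = S₁.card + S₂.card := Finset.card_union_of_disjoint hd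
    have hs : (S₁ ∪ S₂).card ≤ A.card :=
      Finset.card_le_card (Finset.union_subset (Finset.filter_subset _ _)
        (Finset.filter_subset _ _))
    omega
  obtain ⟨a, h1, h2⟩ := Finset.not_disjoint_iff.mp hnd
  simp only [hS₁, hS₂, Finset.mem_filter] at h1 h2
  exact ⟨a, h1.1, _, h1.2, _, h2.2, mul_inv_cancel_left _ _, mul_inv_cancel_left _ _⟩

/-- The diameter does not grow under a non-unique product with a three element set. -/
theorem diam_le_of_pigeon (h : IsTreeDist Γ d) [DecidableEq Γ] {A B : Finset Γ} (hA : A.card ≤ 3)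
    (hNU : NoUnique A B) (o : X) {D : ℝ}
    (hD : ∀ c ∈ B, ∀ c' ∈ B, d (c • o) (c' • o) ≤ D) :
    ∀ a ∈ A, ∀ c ∈ B, ∀ a' ∈ A, ∀ c' ∈ B, d ((a * c) • o) ((a' * c') • o) ≤ D := by
  intro a ha c hc a' ha' c' hc'
  obtain ⟨x, _, e₁, he₁, e₂, he₂, h1, h2⟩ := pigeon hA hNU ha hc ha' hc'
  rw [← h1, ← h2, mul_smul, mul_smul, h.inv]
  exact hD _ he₁ _ he₂

end

end Vale.Agent.Lib.P201
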