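import Mathlib
import Vale.Agent.Lib.P201.Core

noncomputable section

namespace Vale.Agent.Lib.P201

open MonoidAlgebra

universe u v w

section Algebra

variable {K : Type v} {G : Type u} [Field K] [Group G]

theorem noUnique_of_mul_eq_zero {α β : MonoidAlgebra K G} (h : α * β = 0) :
    NoUnique α.coeff.support β.coeff.support := by
  intro a ha b hb
  by_contra hcon
  push Not at hcon
  have hu : UniqueMul α.coeff.support β.coeff.support a b := by
    intro a' b' ha' hb' he
    have hae : a' = a := by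
      by_contra hne
      exact hcon a' ha' b' hb' hne he
    subst hae
    exact ⟨rfl, mul_left_cancel he⟩
  have := coeff_mul_mul_of_uniqueMul hu
  rw [h] at this
  have h2 : α.coeff a * β.coeff b ≠ 0 :=
    mul_ne_zero (Finsupp.mem_support_iff.mp ha) (Finsupp.mem_support_iff.mp hb)
  exact h2 (by simpa using this.symm)

/-- Left restriction to a coset of a subgroup. -/
def resL (H : Subgroup G) (a₁ : G) (α : MonoidAlgebra K G) : MonoidAlgebra K H :=
  ofCoeff (Finsupp.comapDomain (fun h : H => a₁ * (h : G)) α.coeff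
    (fun _ _ _ _ he => Subtype.ext (mul_left_cancel he)))

/-- Right restriction to a coset of a subgroup. -/
def resR (H : Subgroup G) (b₀ : G) (β : MonoidAlgebra K G) : MonoidAlgebra K H :=
  ofCoeff (Finsupp.comapDomain (fun h : H => (h : G) * b₀) β.coeff
    (fun _ _ _ _ he => Subtype.ext (mul_right_cancel he)))

@[simp] theorem resL_coeff (H : Subgroup G) (a₁ : G) (α : MonoidAlgebra K G) (h : H) :
    (resL H a₁ α).coeff h = α.coeff (a₁ * h) := rfl

@[simp] theorem resR_coeff (H : Subgroup G) (b₀ : G) (β : MonoidAlgebra K G) (h : H) :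
    (resR H b₀ β).coeff h = β.coeff (h * b₀) := rfl

theorem res_mul_eq_zero {H : Subgroup G} {a₁ : G} {α : MonoidAlgebra K G}
    (hH : ∀ a ∈ α.coeff.support, a₁⁻¹ * a ∈ H) (b₀ : G) {β : MonoidAlgebra K G}
    (h : α * β = 0) : resL H a₁ α * resR H b₀ β = 0 := by
  refine MonoidAlgebra.ext (Finsupp.ext fun y => ?_)
  rw [coeff_mul_apply_left]
  have hbij : Set.BijOn (fun h : H => a₁ * (h : G))
      ((fun h : H => a₁ * (h : G)) ⁻¹' ↑α.coeff.support) ↑α.coeff.support := by
    refine ⟨fun x hx => hx, fun _ _ _ _ he => Subtype.ext (mul_left_cancel he), ?_⟩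
    intro a ha
    exact ⟨⟨a₁⁻¹ * a, hH a ha⟩, by simpa using ha, by simp⟩
  have hs := Finsupp.sum_comapDomain (fun h : H => a₁ * (h : G)) α.coeff
    (fun a r => r * β.coeff (a⁻¹ * (a₁ * y * b₀))) hbij
  have h0 : (α * β).coeff (a₁ * y * b₀) = 0 := by rw [h]; simp
  rw [coeff_mul_apply_left] at h0
  rw [h0] at hs
  refine Eq.trans ?_ hs
  show Finsupp.sum _ _ = Finsupp.sum _ _
  apply Finsupp.sum_congr
  intro x _
  simp only [Function.comp, resR_coeff, Subgroup.coe_mul, Subgroup.coe_inv]
  congr 2
  group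

theorem card_resL_le (H : Subgroup G) (a₁ : G) (α : MonoidAlgebra K G) :
    (resL H a₁ α).coeff.support.card ≤ α.coeff.support.card := by
  classical
  refine Finset.card_le_card_of_injOn (fun h : H => a₁ * (h : G)) ?_ ?_
  · intro x hx
    simpa using hx
  · intro _ _ _ _ he
    exact Subtype.ext (mul_left_cancel he)

theorem resL_ne_zero {H : Subgroup G} {a₁ : G} {α : MonoidAlgebra K G}
    (ha₁ : a₁ ∈ α.coeff.support) : resL H a₁ α ≠ 0 := by
  intro h
  have h1 := congrArg (fun f => f.coeff (1 : H)) h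
  simp only [resL_coeff, Subgroup.coe_one, mul_one, coeff_zero, Finsupp.zero_apply] at h1
  exact Finsupp.mem_support_iff.mp ha₁ h1

theorem resR_ne_zero {H : Subgroup G} {b₀ : G} {β : MonoidAlgebra K G}
    (hb₀ : b₀ ∈ β.coeff.support) : resR H b₀ β ≠ 0 := by
  intro h
  have h1 := congrArg (fun f => f.coeff (1 : H)) h
  simp only [resR_coeff, Subgroup.coe_one, one_mul, coeff_zero, Finsupp.zero_apply] at h1
  exact Finsupp.mem_support_iff.mp hb₀ h1

/-- The anti-automorphism of a group algebra induced by inversion. -/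
def flipA (f : MonoidAlgebra K G) : MonoidAlgebra K G :=
  ofCoeff (Finsupp.comapDomain (fun g : G => g⁻¹) f.coeff
    (fun _ _ _ _ he => inv_injective he))

@[simp] theorem flipA_coeff (f : MonoidAlgebra K G) (g : G) :
    (flipA f).coeff g = f.coeff g⁻¹ := rfl

theorem flipA_mul (f g : MonoidAlgebra K G) : flipA (f * g) = flipA g * flipA f := by
  refine MonoidAlgebra.ext (Finsupp.ext fun x => ?_)
  rw [flipA_coeff, coeff_mul_apply_right, coeff_mul_apply_left]
  have hbij : Set.BijOn (fun h : G => h⁻¹)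
      ((fun h : G => h⁻¹) ⁻¹' ↑g.coeff.support) ↑g.coeff.support := by
    refine ⟨fun x hx => hx, fun _ _ _ _ he => inv_injective he, ?_⟩
    intro a ha
    exact ⟨a⁻¹, by simpa using ha, by simp⟩
  have hs := Finsupp.sum_comapDomain (fun h : G => h⁻¹) g.coeff
    (fun b r => f.coeff (x⁻¹ * b⁻¹) * r) hbij
  rw [← hs]
  show Finsupp.sum _ _ = Finsupp.sum _ _
  apply Finsupp.sum_congr
  intro y _
  simp only [Function.comp, flipA_coeff, inv_inv, mul_inv_rev]
  rw [mul_comm]

theorem flipA_eq_zero {f : MonoidAlgebra K G} (h : flipA f = 0) : f = 0 := by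
  refine MonoidAlgebra.ext (Finsupp.ext fun x => ?_)
  have := congrArg (fun u => u.coeff x⁻¹) h
  simpa using this

@[simp] theorem flipA_zero : flipA (0 : MonoidAlgebra K G) = 0 := by
  refine MonoidAlgebra.ext (Finsupp.ext fun x => ?_)
  simp

theorem card_flipA (f : MonoidAlgebra K G) :
    (flipA f).coeff.support.card ≤ f.coeff.support.card := by
  classical
  refine Finset.card_le_card_of_injOn (fun h : G => h⁻¹) ?_ ?_
  · intro x hx
    simpa using hx
  · intro _ _ _ _ he
    exact inv_injective he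

end Algebra

end Vale.Agent.Lib.P201
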