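import Mathlib
import Vale.Agent.Lib.P201.Reduce

noncomputable section

namespace Vale.Agent.Lib.P201

open MonoidAlgebra

universe u v w

section

variable {Γ : Type u} {X : Type v} [Group Γ] [MulAction Γ X] {d : X → X → ℝ}

/-- A diametral pair gives an invariant radial function as soon as translating by `A` does not
increase diameters. -/
theorem pair_of_diam (hd : IsTreeDist Γ d) (A B : Finset Γ) (hA : A.Nonempty) (hB : B.Nonempty)
    (o : X)
    (hdiam : ∀ D : ℝ, (∀ c ∈ B, ∀ c' ∈ B, d (c • o) (c' • o) ≤ D) →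
      ∀ a ∈ A, ∀ c ∈ B, ∀ a' ∈ A, ∀ c' ∈ B, d ((a * c) • o) ((a' * c') • o) ≤ D) :
    ∃ p q : X, ∀ a ∈ A, ∀ a' ∈ A, ∀ v : X,
      max (d ((a * a'⁻¹) • v) p) (d ((a * a'⁻¹) • v) q) = max (d v p) (d v q) := by
  classical
  obtain ⟨a₀, ha₀⟩ := hA
  obtain ⟨⟨b₁, b₂⟩, hb, hmax⟩ := Finset.exists_max_image (B ×ˢ B)
    (fun x : Γ × Γ => d (x.1 • o) (x.2 • o)) (hB.product hB)
  rw [Finset.mem_product] at hb
  have hD : ∀ c ∈ B, ∀ c' ∈ B, d (c • o) (c' • o) ≤ d (b₁ • o) (b₂ • o) := fun c hc c' hc' =>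
    hmax (c, c') (Finset.mem_product.mpr ⟨hc, hc'⟩)
  refine ⟨(a₀ * b₁) • o, (a₀ * b₂) • o, ?_⟩
  intro a ha a' ha' v
  exact zeta_invariant hd A B o hb.1 hb.2 ha₀ (hdiam _ hD) ha ha' v

end

section

variable {G : Type u} [Group G] {K : Type w} [Field K]

theorem mem_diffSubgroup {A : Set G} {a b : G} (ha : a ∈ A) (hb : b ∈ A) :
    a⁻¹ * b ∈ diffSubgroup A :=
  Subgroup.subset_closure ⟨a, ha, b, hb, rfl⟩

/-- Passing from generators to the whole subgroup. -/
theorem invariant_of_generators {A : Set G} {X : Type v} [MulAction (diffSubgroup A) X]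
    {a₁ : G} (ha₁ : a₁ ∈ A) {ζ : X → ℝ}
    (hgen : ∀ (a : G) (ha : a ∈ A), ∀ v : X,
      ζ ((⟨a₁⁻¹ * a, mem_diffSubgroup ha₁ ha⟩ : diffSubgroup A) • v) = ζ v)
    (g : diffSubgroup A) (v : X) : ζ (g • v) = ζ v := by
  have hinv' : ∀ (h : diffSubgroup A), (∀ v : X, ζ (h • v) = ζ v) →
      ∀ v : X, ζ (h⁻¹ • v) = ζ v := by
    intro h hh v
    have := hh (h⁻¹ • v)
    rw [smul_inv_smul] at this
    exact this.symm
  obtain ⟨g, hg⟩ := g
  revert v
  induction hg using Subgroup.closure_induction with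
  | mem x hx =>
    obtain ⟨a, ha, b, hb, rfl⟩ := hx
    intro v
    have e : (⟨a⁻¹ * b, Subgroup.subset_closure ⟨a, ha, b, hb, rfl⟩⟩ : diffSubgroup A)
        = (⟨a₁⁻¹ * a, mem_diffSubgroup ha₁ ha⟩ : diffSubgroup A)⁻¹
          * ⟨a₁⁻¹ * b, mem_diffSubgroup ha₁ hb⟩ := by
      apply Subtype.ext
      simp only [Subgroup.coe_mul, Subgroup.coe_inv]
      group
    rw [e, mul_smul, hinv' _ (hgen a ha), hgen b hb]
  | one =>
    intro v
    exact congrArg ζ (one_smul (diffSubgroup A) v)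
  | mul x y hx hy ihx ihy =>
    intro v
    have e : (⟨x * y, mul_mem hx hy⟩ : diffSubgroup A) = ⟨x, hx⟩ * ⟨y, hy⟩ := rfl
    rw [e, mul_smul, ihx, ihy]
  | inv x hx ih =>
    intro v
    exact hinv' ⟨x, hx⟩ ih v

/-- The invariant radial function attached to a zero divisor, under a stability hypothesis on
the restricted supports. -/
theorem invariant_pair_aux {α β : MonoidAlgebra K G} (hβ : β ≠ 0) (h : α * β = 0)
    {X : Type v} [MulAction (diffSubgroup (α.coeff.support : Set G)) X]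
    {d : X → X → ℝ} (hd : IsTreeDist (diffSubgroup (α.coeff.support : Set G)) d) (o : X)
    (hkey : ∀ a₁ ∈ α.coeff.support, ∀ b₀ ∈ β.coeff.support, ∀ D : ℝ,
      (∀ c ∈ (resR (diffSubgroup (α.coeff.support : Set G)) b₀ β).coeff.support,
        ∀ c' ∈ (resR (diffSubgroup (α.coeff.support : Set G)) b₀ β).coeff.support,
        d (c • o) (c' • o) ≤ D) →
      ∀ a ∈ (resL (diffSubgroup (α.coeff.support : Set G)) a₁ α).coeff.support,
      ∀ c ∈ (resR (diffSubgroup (α.coeff.support : Set G)) b₀ β).coeff.support,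
      ∀ a' ∈ (resL (diffSubgroup (α.coeff.support : Set G)) a₁ α).coeff.support,
      ∀ c' ∈ (resR (diffSubgroup (α.coeff.support : Set G)) b₀ β).coeff.support,
        d ((a * c) • o) ((a' * c') • o) ≤ D) :
    ∃ p q : X, ∀ (g : diffSubgroup (α.coeff.support : Set G)) (v : X),
      max (d (g • v) p) (d (g • v) q) = max (d v p) (d v q) := by
  classical
  rcases α.coeff.support.eq_empty_or_nonempty with he | ⟨a₁, ha₁⟩
  · refine ⟨o, o, ?_⟩
    intro g v
    have hbot : diffSubgroup (α.coeff.support : Set G) = ⊥ := by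
      unfold diffSubgroup
      rw [he]
      simp
    have hg : g = 1 := by
      apply Subtype.ext
      exact Subgroup.mem_bot.mp (hbot.le g.2)
    rw [hg, one_smul]
  have hβ' : β.coeff.support.Nonempty := by
    rw [Finsupp.support_nonempty_iff]
    exact fun h0 => hβ (MonoidAlgebra.coeff_inj.mp (by simpa using h0))
  obtain ⟨b₀, hb₀⟩ := hβ'
  have hA0 : (1 : diffSubgroup (α.coeff.support : Set G)) ∈ (resL (diffSubgroup (α.coeff.support : Set G)) a₁ α).coeff.support := by
    rw [Finsupp.mem_support_iff, resL_coeff]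
    simpa using Finsupp.mem_support_iff.mp ha₁
  have hB0 : (1 : diffSubgroup (α.coeff.support : Set G)) ∈ (resR (diffSubgroup (α.coeff.support : Set G)) b₀ β).coeff.support := by
    rw [Finsupp.mem_support_iff, resR_coeff]
    simpa using Finsupp.mem_support_iff.mp hb₀
  obtain ⟨p, q, hpq⟩ := pair_of_diam hd (resL (diffSubgroup (α.coeff.support : Set G)) a₁ α).coeff.support (resR (diffSubgroup (α.coeff.support : Set G)) b₀ β).coeff.support
    ⟨1, hA0⟩ ⟨1, hB0⟩ o (hkey a₁ ha₁ b₀ hb₀)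
  refine ⟨p, q, ?_⟩
  intro g v
  refine invariant_of_generators (A := (α.coeff.support : Set G)) (a₁ := a₁) (by exact_mod_cast ha₁)
    (ζ := fun v => max (d v p) (d v q)) ?_ g v
  intro a ha w
  have hmem : (⟨a₁⁻¹ * a, mem_diffSubgroup (by exact_mod_cast ha₁) ha⟩ : diffSubgroup (α.coeff.support : Set G)) ∈
      (resL (diffSubgroup (α.coeff.support : Set G)) a₁ α).coeff.support := by
    rw [Finsupp.mem_support_iff, resL_coeff]
    have ha' : a ∈ α.coeff.support := by exact_mod_cast ha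
    simpa using Finsupp.mem_support_iff.mp ha'
  have := hpq _ hmem 1 hA0 w
  simpa using this

/-- The case of at most three terms. -/
theorem invariant_pair_three {α β : MonoidAlgebra K G} (hβ : β ≠ 0) (h : α * β = 0)
    (hcard : α.coeff.support.card ≤ 3)
    {X : Type v} [MulAction (diffSubgroup (α.coeff.support : Set G)) X]
    {d : X → X → ℝ} (hd : IsTreeDist (diffSubgroup (α.coeff.support : Set G)) d) (o : X) :
    ∃ p q : X, ∀ (g : diffSubgroup (α.coeff.support : Set G)) (v : X),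
      max (d (g • v) p) (d (g • v) q) = max (d v p) (d v q) := by
  classical
  refine invariant_pair_aux hβ h hd o ?_
  intro a₁ ha₁ b₀ hb₀ D hD
  have hmem : ∀ a ∈ α.coeff.support,
      a₁⁻¹ * a ∈ diffSubgroup (α.coeff.support : Set G) := fun a ha =>
    mem_diffSubgroup (by exact_mod_cast ha₁) (by exact_mod_cast ha)
  exact diam_le_of_pigeon hd ((card_resL_le _ _ _).trans hcard)
    (noUnique_of_mul_eq_zero (res_mul_eq_zero hmem b₀ h)) o hD

end

end Vale.Agent.Lib.P201
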