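import Mathlib

noncomputable section

namespace Vale.Agent.Lib.P201

open SimpleGraph

universe u

variable {V : Type u} {T : SimpleGraph V}

/-- In a tree every path is a geodesic. -/
theorem path_length_eq_dist (hT : T.IsTree) {u v : V} {p : T.Walk u v} (hp : p.IsPath) :
    p.length = T.dist u v := by
  obtain ⟨q, hq, hql⟩ := hT.connected.exists_path_of_dist u v
  have := hT.isAcyclic.subsingleton_path u v
  have h : (⟨p, hp⟩ : T.Path u v) = ⟨q, hq⟩ := Subsingleton.elim _ _
  have h' : p = q := congrArg Subtype.val h
  rw [h', hql]

/-- Projection of a vertex to a path. -/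
theorem exists_projection (hT : T.IsTree) {x y : V} {P : T.Walk x y} (hP : P.IsPath) (z : V) :
    ∃ m ∈ P.support, T.dist z x = T.dist z m + T.dist m x ∧
      T.dist z y = T.dist z m + T.dist m y := by
  classical
  obtain ⟨m, hm, hmin⟩ := Finset.exists_min_image P.support.toFinset (fun t => T.dist z t)
    ⟨x, by simp⟩
  have hm' : m ∈ P.support := by simpa using hm
  refine ⟨m, hm', ?_⟩
  obtain ⟨R, hR, hRl⟩ := hT.connected.exists_path_of_dist z m
  have hkey : ∀ (e : V) (W : T.Walk m e), W.IsPath → (∀ t ∈ W.support, t ∈ P.support) →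
      (R.append W).IsPath := by
    intro e W hW hsub
    rw [Walk.isPath_def, Walk.support_append, List.nodup_append']
    refine ⟨hR.support_nodup, (hW.support_nodup).tail, ?_⟩
    intro t ht1 ht2
    have hW' := hW.support_nodup
    rw [← Walk.cons_tail_support, List.nodup_cons] at hW'
    have htm : t ≠ m := fun h => hW'.1 (h ▸ ht2)
    have ht3 : t ∈ P.support := hsub t (List.mem_of_mem_tail ht2)
    have h1 := hmin t (by simpa using ht3)
    have h2 := Walk.length_takeUntil_lt_length ht1 htm
    have h3 : T.dist z t ≤ (R.takeUntil t ht1).length := dist_le _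
    omega
  have hspec := P.take_spec hm'
  have h1 : (R.append (P.takeUntil m hm').reverse).IsPath := by
    refine hkey _ _ (hP.takeUntil hm').reverse ?_
    intro t ht
    rw [Walk.support_reverse, List.mem_reverse] at ht
    rw [← hspec, Walk.mem_support_append_iff]
    exact Or.inl ht
  have h2 : (R.append (P.dropUntil m hm')).IsPath := by
    refine hkey _ _ (hP.dropUntil hm') ?_
    intro t ht
    rw [← hspec, Walk.mem_support_append_iff]
    exact Or.inr ht
  constructor
  · rw [← path_length_eq_dist hT h1, Walk.length_append, Walk.length_reverse, hRl,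
      ← path_length_eq_dist hT (hP.takeUntil hm').reverse, Walk.length_reverse]
  · rw [← path_length_eq_dist hT h2, Walk.length_append, hRl,
      ← path_length_eq_dist hT (hP.dropUntil hm')]

/-- A vertex on a path splits its length. -/
theorem dist_add_of_mem (hT : T.IsTree) {x y : V} {P : T.Walk x y} (hP : P.IsPath) {m : V}
    (hm : m ∈ P.support) : T.dist x m + T.dist m y = T.dist x y := by
  classical
  have hspec := P.take_spec hm
  rw [← path_length_eq_dist hT (hP.takeUntil hm), ← path_length_eq_dist hT (hP.dropUntil hm),
    ← path_length_eq_dist hT hP, ← Walk.length_append, hspec]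

/-- Two vertices of a path are as far apart as their positions say. -/
theorem dist_le_of_mem (hT : T.IsTree) {x y : V} {P : T.Walk x y} (hP : P.IsPath) {m n : V}
    (hm : m ∈ P.support) (hn : n ∈ P.support) :
    T.dist x n + T.dist n m = T.dist x m ∨ T.dist x m + T.dist m n = T.dist x n := by
  classical
  have hspec := P.take_spec hm
  have hn' := hn
  rw [← hspec, Walk.mem_support_append_iff] at hn'
  rcases hn' with h | h
  · left
    exact dist_add_of_mem hT (hP.takeUntil hm) h
  · right
    have h1 := dist_add_of_mem hT (hP.dropUntil hm) h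
    have h2 := dist_add_of_mem hT hP hm
    have h3 := dist_add_of_mem hT hP hn
    omega

/-- The four point condition for the path metric of a tree. -/
theorem tree_four_point (hT : T.IsTree) (x y z w : V) :
    T.dist x y + T.dist z w ≤ max (T.dist x z + T.dist y w) (T.dist x w + T.dist y z) := by
  obtain ⟨P, hP, -⟩ := hT.connected.exists_path_of_dist x y
  obtain ⟨m, hm, h1, h2⟩ := exists_projection hT hP z
  obtain ⟨n, hn, h3, h4⟩ := exists_projection hT hP w
  have h5 := dist_add_of_mem hT hP hm
  have h6 := dist_add_of_mem hT hP hn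
  have h7 : T.dist z w ≤ T.dist z m + T.dist m w := hT.connected.dist_triangle
  have h8 : T.dist m w ≤ T.dist m n + T.dist n w := hT.connected.dist_triangle
  have e1 := T.dist_comm (u := x) (v := z)
  have e2 := T.dist_comm (u := y) (v := w)
  have e3 := T.dist_comm (u := x) (v := w)
  have e4 := T.dist_comm (u := y) (v := z)
  have e5 := T.dist_comm (u := m) (v := x)
  have e6 := T.dist_comm (u := n) (v := x)
  have e7 := T.dist_comm (u := w) (v := n)
  have e8 := T.dist_comm (u := m) (v := y)
  have e9 := T.dist_comm (u := n) (v := y)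
  have e10 := T.dist_comm (u := n) (v := m)
  rcases dist_le_of_mem hT hP hm hn with h | h
  · apply le_max_of_le_left
    omega
  · apply le_max_of_le_right
    omega

/-- Vertices near the middle of a pair. -/
theorem exists_mid (hT : T.IsTree) (p q : V) :
    ∃ m, 2 * T.dist p m ≤ T.dist p q + 1 ∧ 2 * T.dist q m ≤ T.dist p q + 1 := by
  obtain ⟨P, hP, hl⟩ := hT.connected.exists_path_of_dist p q
  refine ⟨P.getVert (T.dist p q / 2), ?_, ?_⟩
  · have h1 : (P.take (T.dist p q / 2)).length = T.dist p q / 2 := by
      rw [Walk.take_length]; omega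
    have h2 : T.dist p (P.getVert (T.dist p q / 2)) ≤ (P.take (T.dist p q / 2)).length :=
      dist_le _
    omega
  · have h1 : (P.drop (T.dist p q / 2)).length = T.dist p q - T.dist p q / 2 := by
      rw [Walk.drop_length]; omega
    have h2 : T.dist (P.getVert (T.dist p q / 2)) q ≤ (P.drop (T.dist p q / 2)).length :=
      dist_le _
    have h3 := T.dist_comm (u := q) (v := P.getVert (T.dist p q / 2))
    omega

/-- Trees have no triangles. -/
theorem no_triangle (hT : T.IsTree) {a b c : V} (h1 : T.Adj a b) (h2 : T.Adj b c) (h3 : T.Adj a c) :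
    False := by
  have hp : (Walk.cons h1 (Walk.cons h2 Walk.nil)).IsPath := by
    simp [Walk.cons_isPath_iff, h1.ne, h2.ne, h3.ne]
  have hq : (Walk.cons h3 Walk.nil).IsPath := by
    simp [Walk.cons_isPath_iff, h3.ne]
  have e1 := path_length_eq_dist hT hp
  have e2 := path_length_eq_dist hT hq
  simp at e1 e2
  omega

end Vale.Agent.Lib.P201
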