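import Mathlib
import Vale.Agent.Lib.P201.Pair
import Vale.Agent.Lib.P201.TreeDist

noncomputable section

namespace Vale.Agent.Lib.P201

open MonoidAlgebra

universe u v w

/-- The real line satisfies the four point condition. -/
theorem zeroHyperbolic_real : ZeroHyperbolic ℝ := by
  intro x y z w
  simp only [Real.dist_eq]
  rcases abs_cases (x - y) with ⟨h1, h1'⟩ | ⟨h1, h1'⟩ <;>
  rcases abs_cases (z - w) with ⟨h2, h2'⟩ | ⟨h2, h2'⟩ <;>
  rcases abs_cases (x - z) with ⟨h3, h3'⟩ | ⟨h3, h3'⟩ <;>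
  rcases abs_cases (y - w) with ⟨h4, h4'⟩ | ⟨h4, h4'⟩ <;>
  rcases abs_cases (x - w) with ⟨h5, h5'⟩ | ⟨h5, h5'⟩ <;>
  rcases abs_cases (y - z) with ⟨h6, h6'⟩ | ⟨h6, h6'⟩ <;>
  rw [h1, h2, h3, h4, h5, h6] <;>
  first
  | (apply le_max_of_le_left; linarith)
  | (apply le_max_of_le_right; linarith)

theorem isTreeDist_of_zeroHyperbolic {X : Type v} [PseudoMetricSpace X] (hX : ZeroHyperbolic X)
    (Γ : Type u) [Group Γ] [MulAction Γ X] [IsIsometricSMul Γ X] :
    IsTreeDist Γ (dist : X → X → ℝ) where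
  symm := dist_comm
  tri := dist_triangle
  inv := fun g x y => dist_smul g x y
  four := hX

section

variable {G : Type u} [Group G] {K : Type w} [Field K]

/-- Bounded orbits for an invariant radial function. -/
theorem bounded_of_invariant {Γ : Type u} [Group Γ] {X : Type v} [MulAction Γ X] {d : X → X → ℝ}
    (hd : IsTreeDist Γ d) {p q : X}
    (hpq : ∀ (g : Γ) (v : X), max (d (g • v) p) (d (g • v) q) = max (d v p) (d v q))
    (g : Γ) (v : X) : d (g • v) v ≤ 2 * max (d v p) (d v q) := by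
  have h1 := hd.tri (g • v) p v
  have h2 : d (g • v) p ≤ max (d v p) (d v q) := by
    rw [← hpq g v]; exact le_max_left _ _
  have h3 : d p v ≤ max (d v p) (d v q) := by
    rw [hd.symm]; exact le_max_left _ _
  linarith

/-- Almost fixed points near the midpoint of the invariant pair. -/
theorem displacement_le {Γ : Type u} [Group Γ] {X : Type v} [MulAction Γ X] {d : X → X → ℝ}
    (hd : IsTreeDist Γ d) {p q : X}
    (hpq : ∀ (g : Γ) (v : X), max (d (g • v) p) (d (g • v) q) = max (d v p) (d v q))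
    {m : X} {κ : ℝ} (h1 : d m p ≤ d p q / 2 + κ) (h2 : d m q ≤ d p q / 2 + κ) (g : Γ) :
    d (g • m) m ≤ 2 * κ := by
  have hζ : max (d (g • m) p) (d (g • m) q) ≤ d p q / 2 + κ := by
    rw [hpq g m]; exact max_le h1 h2
  have h3 : d (g • m) p ≤ d p q / 2 + κ := (le_max_left _ _).trans hζ
  have h4 : d (g • m) q ≤ d p q / 2 + κ := (le_max_right _ _).trans hζ
  have hf := hd.four p q (g • m) m
  rw [hd.symm p (g • m), hd.symm q m, hd.symm p m, hd.symm q (g • m)] at hf
  rcases le_max_iff.mp hf with h5 | h5 <;> linarith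

end

section Trees

open SimpleGraph

variable {Γ : Type u} {V : Type v} [Group Γ] [MulAction Γ V] {T : SimpleGraph V}

theorem tree_dist_smul_le (hadj : ∀ (g : Γ) (u v : V), T.Adj u v → T.Adj (g • u) (g • v))
    (hT : T.IsTree) (g : Γ) (u v : V) : T.dist (g • u) (g • v) ≤ T.dist u v := by
  obtain ⟨w, hw⟩ := hT.connected.exists_walk_length_eq_dist u v
  let φ : T →g T := ⟨fun x : V => g • x, fun {a b} h => hadj g a b h⟩
  have h1 : T.dist (φ u) (φ v) ≤ (w.map φ).length := dist_le _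
  rw [Walk.length_map, hw] at h1
  exact h1

theorem tree_dist_smul (hadj : ∀ (g : Γ) (u v : V), T.Adj u v → T.Adj (g • u) (g • v))
    (hT : T.IsTree) (g : Γ) (u v : V) : T.dist (g • u) (g • v) = T.dist u v := by
  refine le_antisymm (tree_dist_smul_le hadj hT g u v) ?_
  have := tree_dist_smul_le hadj hT g⁻¹ (g • u) (g • v)
  rwa [inv_smul_smul, inv_smul_smul] at this

theorem isTreeDist_tree (hadj : ∀ (g : Γ) (u v : V), T.Adj u v → T.Adj (g • u) (g • v))
    (hT : T.IsTree) : IsTreeDist Γ (fun u v : V => (T.dist u v : ℝ)) where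
  symm := fun x y => by simp only [SimpleGraph.dist_comm]
  tri := fun x y z => by exact_mod_cast hT.connected.dist_triangle
  inv := fun g x y => by simp only [tree_dist_smul hadj hT]
  four := fun x y z w => by exact_mod_cast tree_four_point hT x y z w

/-- An invariant pair on a tree produces a fixed vertex or an invariant edge. -/
theorem fixed_or_edge (hadj : ∀ (g : Γ) (u v : V), T.Adj u v → T.Adj (g • u) (g • v))
    (hT : T.IsTree) {p q : V}
    (hpq : ∀ (g : Γ) (v : V),
      max ((T.dist (g • v) p : ℝ)) (T.dist (g • v) q) = max ((T.dist v p : ℝ)) (T.dist v q)) :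
    (∃ m : V, ∀ g : Γ, g • m = m) ∨
      ∃ u v : V, T.Adj u v ∧ ∀ g : Γ, (g • u = u ∧ g • v = v) ∨ (g • u = v ∧ g • v = u) := by
  obtain ⟨m, hm1, hm2⟩ := exists_mid hT p q
  have hd := isTreeDist_tree hadj hT
  have hmove : ∀ g : Γ, T.dist (g • m) m ≤ 1 := by
    intro g
    have h1 : ((T.dist m p : ℕ) : ℝ) ≤ (T.dist p q : ℝ) / 2 + 1 / 2 := by
      have : ((2 * T.dist m p : ℕ) : ℝ) ≤ ((T.dist p q + 1 : ℕ) : ℝ) := by
        rw [SimpleGraph.dist_comm]; exact_mod_cast hm1
      push_cast at this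
      linarith
    have h2 : ((T.dist m q : ℕ) : ℝ) ≤ (T.dist p q : ℝ) / 2 + 1 / 2 := by
      have : ((2 * T.dist m q : ℕ) : ℝ) ≤ ((T.dist p q + 1 : ℕ) : ℝ) := by
        rw [SimpleGraph.dist_comm (u := m)]; exact_mod_cast hm2
      push_cast at this
      linarith
    have := displacement_le (d := fun u v : V => (T.dist u v : ℝ)) hd hpq h1 h2 g
    have h3 : ((T.dist (g • m) m : ℕ) : ℝ) ≤ 1 := by linarith
    exact_mod_cast h3
  by_cases hfix : ∀ g : Γ, g • m = m
  · exact Or.inl ⟨m, hfix⟩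
  push Not at hfix
  obtain ⟨g₀, hg₀⟩ := hfix
  have hadj_of : ∀ {a b : V}, T.dist a b ≤ 1 → a ≠ b → T.Adj a b := by
    intro a b h hne
    have hpos := hT.connected.pos_dist_of_ne hne
    exact SimpleGraph.dist_eq_one_iff_adj.mp (by omega)
  have hnm : T.Adj (g₀ • m) m := hadj_of (hmove g₀) hg₀
  have horb : ∀ g : Γ, g • m = m ∨ g • m = g₀ • m := by
    intro g
    by_contra hcon
    push Not at hcon
    have h1 : T.Adj (g • m) m := hadj_of (hmove g) hcon.1
    have h2 : T.dist (g • m) (g₀ • m) ≤ 1 := by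
      have := tree_dist_smul hadj hT g₀⁻¹ (g • m) (g₀ • m)
      rw [inv_smul_smul, ← mul_smul] at this
      rw [← this]
      exact hmove _
    have h3 : T.Adj (g • m) (g₀ • m) := hadj_of h2 hcon.2
    exact no_triangle hT h1 hnm.symm h3
  refine Or.inr ⟨g₀ • m, m, hnm, ?_⟩
  intro g
  have h1 := horb g
  have h2 := horb (g * g₀)
  rw [mul_smul] at h2
  have hne : g • g₀ • m ≠ g • m := by
    intro he
    exact hg₀ (smul_left_cancel g he)
  rcases h1 with h1 | h1 <;> rcases h2 with h2 | h2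
  · exact absurd (h2.trans h1.symm) hne
  · exact Or.inl ⟨h2, h1⟩
  · exact Or.inr ⟨h2, h1⟩
  · exact absurd (h2.trans h1.symm) hne

end Trees

section Hyperbolic

variable {Γ : Type u} {X : Type v} [Group Γ] [MulAction Γ X] [PseudoMetricSpace X]
  [IsIsometricSMul Γ X]

/-- In a `δ`-hyperbolic space a non-unique product with a three element set has small joint
displacement at the almost-midpoint of a diametral pair. -/
theorem hyperbolic_displacement {δ κ : ℝ}
    (hδ : ∀ x y z w : X,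
      dist x y + dist z w ≤ max (dist x z + dist y w) (dist x w + dist y z) + 2 * δ)
    (hκ : ∀ x y : X, ∃ m : X, dist x m ≤ dist x y / 2 + κ ∧ dist y m ≤ dist x y / 2 + κ)
    (A B : Finset Γ) (hA : A.card ≤ 3) (hB : B.Nonempty) (hNU : NoUnique A B) (o : X) :
    ∃ m : X, ∀ a ∈ A, ∀ a' ∈ A, dist ((a⁻¹ * a') • m) m ≤ 4 * δ + 2 * κ := by
  classical
  obtain ⟨⟨b₁, b₂⟩, hb, hmax⟩ := Finset.exists_max_image (B ×ˢ B)
    (fun x : Γ × Γ => dist (x.1 • o) (x.2 • o)) (hB.product hB)
  rw [Finset.mem_product] at hb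
  have hD : ∀ c ∈ B, ∀ c' ∈ B, dist (c • o) (c' • o) ≤ dist (b₁ • o) (b₂ • o) := fun c hc c' hc' =>
    hmax (c, c') (Finset.mem_product.mpr ⟨hc, hc'⟩)
  have hdiam : ∀ a ∈ A, ∀ c ∈ B, ∀ a' ∈ A, ∀ c' ∈ B,
      dist (a • c • o) (a' • c' • o) ≤ dist (b₁ • o) (b₂ • o) := by
    intro a ha c hc a' ha' c' hc'
    obtain ⟨x, _, e₁, he₁, e₂, he₂, h1, h2⟩ := pigeon hA hNU ha hc ha' hc'
    rw [← mul_smul, ← mul_smul, ← h1, ← h2, mul_smul, mul_smul, dist_smul]
    exact hD _ he₁ _ he₂
  obtain ⟨m, hm1, hm2⟩ := hκ (b₁ • o) (b₂ • o)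
  refine ⟨m, ?_⟩
  intro a ha a' ha'
  have e0 : dist ((a⁻¹ * a') • m) m = dist (a' • m) (a • m) := by
    have := dist_smul a ((a⁻¹ * a') • m) m
    rw [← mul_smul, mul_inv_cancel_left] at this
    exact this.symm
  rw [e0]
  generalize hp : b₁ • o = p at *
  generalize hq : b₂ • o = q at *
  have c11 : dist (a' • p) (a • p) ≤ dist p q := by
    have := hdiam a' ha' b₁ hb.1 a ha b₁ hb.1; rwa [hp] at this
  have c12 : dist (a' • p) (a • q) ≤ dist p q := by
    have := hdiam a' ha' b₁ hb.1 a ha b₂ hb.2; rwa [hp, hq] at this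
  have c21 : dist (a' • q) (a • p) ≤ dist p q := by
    have := hdiam a' ha' b₂ hb.2 a ha b₁ hb.1; rwa [hp, hq] at this
  have c22 : dist (a' • q) (a • q) ≤ dist p q := by
    have := hdiam a' ha' b₂ hb.2 a ha b₂ hb.2; rwa [hq] at this
  have e1 : dist (a' • p) (a' • q) = dist p q := dist_smul _ _ _
  have e2 : dist (a' • p) (a' • m) = dist p m := dist_smul _ _ _
  have e3 : dist (a' • q) (a' • m) = dist q m := dist_smul _ _ _
  have e4 : dist (a • p) (a • q) = dist p q := dist_smul _ _ _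
  have e5 : dist (a • p) (a • m) = dist p m := dist_smul _ _ _
  have e6 : dist (a • q) (a • m) = dist q m := dist_smul _ _ _
  have s1 : dist (a' • m) (a • p) ≤ dist p q / 2 + κ + 2 * δ := by
    have hf := hδ (a' • p) (a' • q) (a' • m) (a • p)
    rw [e1, e2, e3] at hf
    have hmx : max (dist p m + dist (a' • q) (a • p)) (dist (a' • p) (a • p) + dist q m)
        ≤ dist p q / 2 + κ + dist p q := max_le (by linarith) (by linarith)
    linarith
  have s2 : dist (a' • m) (a • q) ≤ dist p q / 2 + κ + 2 * δ := by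
    have hf := hδ (a' • p) (a' • q) (a' • m) (a • q)
    rw [e1, e2, e3] at hf
    have hmx : max (dist p m + dist (a' • q) (a • q)) (dist (a' • p) (a • q) + dist q m)
        ≤ dist p q / 2 + κ + dist p q := max_le (by linarith) (by linarith)
    linarith
  have hf := hδ (a • p) (a • q) (a' • m) (a • m)
  rw [e4, e5, e6, dist_comm (a • p) (a' • m), dist_comm (a • q) (a' • m)] at hf
  have hmx : max (dist (a' • m) (a • p) + dist q m) (dist p m + dist (a' • m) (a • q))
      ≤ dist p q + 2 * κ + 2 * δ := max_le (by linarith) (by linarith)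
  linarith

end Hyperbolic

end Vale.Agent.Lib.P201
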