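import Mathlib
import Vale.Agent.Lib.P201.Main

noncomputable section

namespace Vale.Agent.Lib.P201

open MonoidAlgebra

universe u v w

section

variable {G : Type u} [Group G] {K : Type w} [Field K]

theorem hom_real_trivial {H : Type u} [Group H] (f : H →* Multiplicative ℝ)
    (hpair : ∀ [MulAction H ℝ] {d : ℝ → ℝ → ℝ}, IsTreeDist H d → ∃ p q : ℝ, ∀ (g : H) (v : ℝ),
      max (d (g • v) p) (d (g • v) q) = max (d v p) (d v q)) : f = 1 := by
  let act : MulAction H ℝ :=
    { smul := fun g x => x + Multiplicative.toAdd (f g)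
      one_smul := fun x => by
        show x + Multiplicative.toAdd (f 1) = x
        simp
      mul_smul := fun g h x => by
        show x + Multiplicative.toAdd (f (g * h)) =
          x + Multiplicative.toAdd (f h) + Multiplicative.toAdd (f g)
        rw [map_mul, toAdd_mul]
        ring }
  have hsmul : ∀ (g : H) (x : ℝ), g • x = x + Multiplicative.toAdd (f g) := fun _ _ => rfl
  have hd : IsTreeDist H (dist : ℝ → ℝ → ℝ) :=
    { symm := dist_comm
      tri := dist_triangle
      inv := fun g x y => by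
        rw [hsmul, hsmul, Real.dist_eq, Real.dist_eq]
        congr 1
        ring
      four := zeroHyperbolic_real }
  obtain ⟨p, q, hpq⟩ := hpair hd
  ext g
  by_contra hne
  have ht : Multiplicative.toAdd (f g) ≠ 0 := by
    intro h0
    apply hne
    simpa using h0
  set t := Multiplicative.toAdd (f g) with htdef
  have hpow : ∀ n : ℕ, (g ^ n) • (0 : ℝ) = n * t := by
    intro n
    rw [hsmul, map_pow, toAdd_pow, htdef]
    simp
  obtain ⟨n, hn⟩ := exists_nat_gt ((2 * max (dist (0 : ℝ) p) (dist (0 : ℝ) q)) / |t|)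
  have hb := bounded_of_invariant hd hpq (g ^ n) (0 : ℝ)
  rw [hpow, Real.dist_eq, sub_zero, abs_mul, Nat.abs_cast] at hb
  have htpos : 0 < |t| := abs_pos.mpr ht
  rw [div_lt_iff₀ htpos] at hn
  linarith

end

/-- From invariant pairs for all actions to the fixed point properties. -/
theorem treeRigid_of_pairs {H : Type u} [Group H]
    (hpairR : ∀ [MulAction H ℝ] {d : ℝ → ℝ → ℝ}, IsTreeDist H d → ∃ p q : ℝ, ∀ (g : H) (v : ℝ),
      max (d (g • v) p) (d (g • v) q) = max (d v p) (d v q))
    (hpair : ∀ (X : Type v) [MulAction H X] {d : X → X → ℝ}, IsTreeDist H d → X →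
      ∃ p q : X, ∀ (g : H) (v : X), max (d (g • v) p) (d (g • v) q) = max (d v p) (d v q)) :
    TreeRigid.{u, v} H := by
  refine ⟨?_, ?_, ?_, ?_⟩
  · intro X _ hX _ _ v
    have hd := isTreeDist_of_zeroHyperbolic hX H
    obtain ⟨p, q, hpq⟩ := hpair X hd v
    exact ⟨_, fun g => bounded_of_invariant hd hpq g v⟩
  · intro X _ _ hX hmid _ _
    have hd := isTreeDist_of_zeroHyperbolic hX H
    obtain ⟨p, q, hpq⟩ := hpair X hd (Classical.arbitrary X)
    obtain ⟨m, hm1, hm2⟩ := hmid p q
    refine ⟨m, fun g => ?_⟩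
    have := displacement_le (κ := 0) hd hpq (m := m) (by rw [dist_comm, hm1]; simp)
      (by rw [dist_comm, hm2]; simp) g
    have h0 : dist (g • m) m ≤ 0 := by simpa using this
    exact dist_le_zero.mp h0
  · intro f
    exact hom_real_trivial f hpairR
  · intro V T hT _ hadj
    have hd := isTreeDist_tree hadj hT
    have : Nonempty V := hT.connected.nonempty
    obtain ⟨p, q, hpq⟩ := hpair V hd (Classical.arbitrary V)
    exact fixed_or_edge hadj hT hpq

/-- The closure theorem for trees, from the invariant pair on the tree. -/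
theorem closure_of_pairs {K : Type w} [Field K] {G : Type u} [Group G] {V : Type v}
    {T : SimpleGraph V} (hT : T.IsTree) [MulAction G V]
    (hadj : ∀ (g : G) (x y : V), T.Adj x y → T.Adj (g • x) (g • y))
    (hinv : ∀ (g : G) (x y : V), T.Adj x y → g • x = y → g • y ≠ x)
    {n : ℕ}
    (hstab : ∀ (x : V) (γ δ : MonoidAlgebra K (MulAction.stabilizer G x)),
      γ.coeff.support.card ≤ n → γ * δ = 0 → γ = 0 ∨ δ = 0)
    (hpair : ∀ α β : MonoidAlgebra K G, β ≠ 0 → α * β = 0 → α.coeff.support.card ≤ n →
      ∀ {d : V → V → ℝ}, IsTreeDist (diffSubgroup (α.coeff.support : Set G)) d → V →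
      ∃ p q : V, ∀ (g : diffSubgroup (α.coeff.support : Set G)) (v : V),
        max (d (g • v) p) (d (g • v) q) = max (d v p) (d v q))
    (α β : MonoidAlgebra K G) (hcard : α.coeff.support.card ≤ n ∨ β.coeff.support.card ≤ n)
    (h : α * β = 0) : α = 0 ∨ β = 0 := by
  have left : ∀ α β : MonoidAlgebra K G, α.coeff.support.card ≤ n → α * β = 0 →
      α = 0 ∨ β = 0 := by
    intro α β hcard h
    by_contra hcon
    push Not at hcon
    obtain ⟨hα, hβ⟩ := hcon
    have hsub : ∀ (g : diffSubgroup (α.coeff.support : Set G)) (x y : V),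
        T.Adj x y → T.Adj (g • x) (g • y) := fun g x y hxy => hadj g x y hxy
    have hd := isTreeDist_tree hsub hT
    have : Nonempty V := hT.connected.nonempty
    obtain ⟨p, q, hpq⟩ := hpair α β hβ h hcard hd (Classical.arbitrary V)
    have hfix : ∃ m : V, ∀ g : diffSubgroup (α.coeff.support : Set G), g • m = m := by
      rcases fixed_or_edge hsub hT hpq with hm | ⟨x, y, hxy, hg⟩
      · exact hm
      · refine ⟨x, fun g => ?_⟩
        rcases hg g with h1 | h1
        · exact h1.1
        · exact absurd h1.2 (hinv g x y hxy h1.1)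
    obtain ⟨m, hm⟩ := hfix
    have hα' : α.coeff.support.Nonempty := by
      rw [Finsupp.support_nonempty_iff]
      exact fun h0 => hα (MonoidAlgebra.coeff_inj.mp (by simpa using h0))
    have hβ' : β.coeff.support.Nonempty := by
      rw [Finsupp.support_nonempty_iff]
      exact fun h0 => hβ (MonoidAlgebra.coeff_inj.mp (by simpa using h0))
    obtain ⟨a₁, ha₁⟩ := hα'
    obtain ⟨b₀, hb₀⟩ := hβ'
    have hmem : ∀ a ∈ α.coeff.support, a₁⁻¹ * a ∈ MulAction.stabilizer G m := by
      intro a ha
      have h1 := hm ⟨a₁⁻¹ * a, mem_diffSubgroup (by exact_mod_cast ha₁) (by exact_mod_cast ha)⟩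
      exact h1
    rcases hstab m _ _ ((card_resL_le _ a₁ α).trans hcard) (res_mul_eq_zero hmem b₀ h) with
      h1 | h1
    · exact resL_ne_zero ha₁ h1
    · exact resR_ne_zero hb₀ h1
  rcases hcard with hcard | hcard
  · exact left α β hcard h
  · have h' : flipA β * flipA α = 0 := by rw [← flipA_mul, h, flipA_zero]
    rcases left (flipA β) (flipA α) ((card_flipA β).trans hcard) h' with h1 | h1
    · exact Or.inr (flipA_eq_zero h1)
    · exact Or.inl (flipA_eq_zero h1)

/-- The theorem on zero divisors with at most three terms. -/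
theorem main_three :
    (∀ (K : Type w) [Field K] (G : Type u) [Group G] (α β : MonoidAlgebra K G),
      β ≠ 0 → α * β = 0 → α.coeff.support.card ≤ 3 →
      TreeRigid.{u, v} (diffSubgroup (α.coeff.support : Set G))) ∧
    (∀ (K : Type w) [Field K] (G : Type u) [Group G] (V : Type v) (T : SimpleGraph V),
      T.IsTree → ∀ [MulAction G V],
      (∀ (g : G) (x y : V), T.Adj x y → T.Adj (g • x) (g • y)) →
      (∀ (g : G) (x y : V), T.Adj x y → g • x = y → g • y ≠ x) →
      (∀ (x : V) (γ δ : MonoidAlgebra K (MulAction.stabilizer G x)),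
        γ.coeff.support.card ≤ 3 → γ * δ = 0 → γ = 0 ∨ δ = 0) →
      ∀ α β : MonoidAlgebra K G, (α.coeff.support.card ≤ 3 ∨ β.coeff.support.card ≤ 3) →
        α * β = 0 → α = 0 ∨ β = 0) ∧
    (∀ (K : Type w) [Field K] (G : Type u) [Group G] (α β : MonoidAlgebra K G),
      β ≠ 0 → α * β = 0 → α.coeff.support.card ≤ 3 →
      ∀ (X : Type v) [PseudoMetricSpace X] [Nonempty X] [MulAction G X] [IsIsometricSMul G X]
        (δ κ : ℝ),
        (∀ x y z w : X,
          dist x y + dist z w ≤ max (dist x z + dist y w) (dist x w + dist y z) + 2 * δ) →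
        (∀ x y : X, ∃ m : X, dist x m ≤ dist x y / 2 + κ ∧ dist y m ≤ dist x y / 2 + κ) →
        ∃ m : X, ∀ a ∈ α.coeff.support, ∀ b ∈ α.coeff.support,
          dist ((a⁻¹ * b) • m) m ≤ 4 * δ + 2 * κ) := by
  refine ⟨?_, ?_, ?_⟩
  · intro K _ G _ α β hβ h hcard
    refine treeRigid_of_pairs ?_ ?_
    · intro _ d hd
      exact invariant_pair_three hβ h hcard hd 0
    · intro X _ d hd o
      exact invariant_pair_three hβ h hcard hd o
  · intro K _ G _ V T hT _ hadj hinv hstab α β hcard h
    refine closure_of_pairs hT hadj hinv hstab ?_ α β hcard h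
    intro α β hβ h hcard d hd o
    exact invariant_pair_three hβ h hcard hd o
  · intro K _ G _ α β hβ h hcard X _ _ _ _ δ κ hδ hκ
    have hβ' : β.coeff.support.Nonempty := by
      rw [Finsupp.support_nonempty_iff]
      exact fun h0 => hβ (MonoidAlgebra.coeff_inj.mp (by simpa using h0))
    exact hyperbolic_displacement hδ hκ _ _ hcard hβ' (noUnique_of_mul_eq_zero h)
      (Classical.arbitrary X)

end Vale.Agent.Lib.P201
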