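import Mathlib
import Vale.Agent.Lib.P201.Pair
import Vale.Agent.Lib.P201.Chain

noncomputable section

namespace Vale.Agent.Lib.P201

open MonoidAlgebra

universe u v w

section Algebra

variable {K : Type w} [Field K] {Γ : Type u} [Group Γ]

/-- A two term element of the group algebra of a torsion-free group is not a left zero divisor. -/
theorem two_term_nzd (ht : ∀ g : Γ, g ≠ 1 → ¬ IsOfFinOrder g) {g h : Γ} {r s : K} (hgh : g ≠ h)
    (hr : r ≠ 0) {γ : MonoidAlgebra K Γ}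
    (hγ : (single g r + single h s) * γ = 0) : γ = 0 := by
  by_contra hne
  have hne' : γ.coeff.support.Nonempty := by
    rw [Finsupp.support_nonempty_iff]
    exact fun h0 => hne (MonoidAlgebra.coeff_inj.mp (by simpa using h0))
  obtain ⟨c, hc⟩ := hne'
  have hW : ∀ y ∈ γ.coeff.support, (h⁻¹ * g) * y ∈ γ.coeff.support := by
    intro y hy
    have h1 := congrArg (fun u => u.coeff (g * y)) hγ
    simp only [add_mul, coeff_add, Finsupp.add_apply, coeff_single_mul_apply, coeff_zero,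
      Finsupp.zero_apply, inv_mul_cancel_left] at h1
    rw [Finsupp.mem_support_iff] at hy ⊢
    intro h0
    rw [← mul_assoc] at h1
    rw [h0, mul_zero, add_zero] at h1
    exact mul_ne_zero hr hy h1
  have hfo := isOfFinOrder_of_preserves hc hW
  have h1 : h⁻¹ * g = 1 := by
    by_contra hn
    exact ht _ hn hfo
  exact hgh (inv_mul_eq_one.mp h1).symm

/-- A factorisation of certain four term elements in terms of two term elements. -/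
theorem four_factor (ht : ∀ g : Γ, g ≠ 1 → ¬ IsOfFinOrder g) {x₁ x₂ x₃ x₄ T : Γ} {c₁ c₂ c₃ c₄ : K}
    (h₁ : x₁ = x₂ * T) (h₃ : x₃ = x₄ * T) (hT : T ≠ 1) (h24 : x₂ ≠ x₄)
    (hc₂ : c₂ ≠ 0) (hrel : c₁ * c₄ = c₂ * c₃) {β : MonoidAlgebra K Γ}
    (h : (single x₁ c₁ + single x₂ c₂ + single x₃ c₃ + single x₄ c₄) * β = 0) : β = 0 := by
  have e : single x₁ c₁ + single x₂ c₂ + single x₃ c₃ + single x₄ c₄
      = (single x₂ 1 + single x₄ (c₄ / c₂)) * (single 1 c₂ + single T c₁) := by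
    have h3 : c₃ = c₄ / c₂ * c₁ := by
      field_simp
      linear_combination -hrel
    have h4 : c₄ / c₂ * c₂ = c₄ := by field_simp
    subst h₁ h₃
    simp only [mul_add, add_mul, single_mul_single, mul_one, one_mul]
    rw [h4, ← h3]
    abel
  rw [e, mul_assoc] at h
  have h1 := two_term_nzd ht h24 one_ne_zero h
  have hT' : (1 : Γ) ≠ T := fun h0 => hT h0.symm
  exact two_term_nzd ht hT' hc₂ h1

theorem decomp_four {α : MonoidAlgebra K Γ} {a₁ a₂ a₃ a₄ : Γ} (h12 : a₁ ≠ a₂) (h13 : a₁ ≠ a₃)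
    (h14 : a₁ ≠ a₄) (h23 : a₂ ≠ a₃) (h24 : a₂ ≠ a₄) (h34 : a₃ ≠ a₄)
    (hs : ∀ a ∈ α.coeff.support, a = a₁ ∨ a = a₂ ∨ a = a₃ ∨ a = a₄) :
    α = single a₁ (α.coeff a₁) + single a₂ (α.coeff a₂) + single a₃ (α.coeff a₃)
      + single a₄ (α.coeff a₄) := by
  classical
  refine MonoidAlgebra.ext (Finsupp.ext fun y => ?_)
  simp only [coeff_add, coeff_single, Finsupp.add_apply, Finsupp.single_apply]
  by_cases e1 : y = a₁
  · subst e1
    simp [h12.symm, h13.symm, h14.symm]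
  by_cases e2 : y = a₂
  · subst e2
    simp [h12, h23.symm, h24.symm]
  by_cases e3 : y = a₃
  · subst e3
    simp [h13, h23, h34.symm]
  by_cases e4 : y = a₄
  · subst e4
    simp [h14, h24, h34]
  have h0 : α.coeff y = 0 := by
    by_contra hn
    rcases hs y (Finsupp.mem_support_iff.mpr hn) with h | h | h | h
    · exact e1 h
    · exact e2 h
    · exact e3 h
    · exact e4 h
  simp [h0, Ne.symm e1, Ne.symm e2, Ne.symm e3, Ne.symm e4]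

end Algebra

section Geometry

variable {Γ : Type u} [Group Γ] {ρ : Γ → Γ → ℝ}

theorem rho_inv (h : IsTreeDist Γ ρ) (g x y : Γ) : ρ (g * x) (g * y) = ρ x y := h.inv g x y

/-- The configuration attached to a diametral pair of the product set, from one side. -/
structure Side (ρ : Γ → Γ → ℝ) (A B : Finset Γ) (a₁ a₂ a₃ a₄ e r u₁ u₂ : Γ) (D₀ Dv : ℝ) :
    Prop where
  hρ : IsTreeDist Γ ρ
  hNU : NoUnique A B
  hA : ∀ a ∈ A, a = a₁ ∨ a = a₂ ∨ a = a₃ ∨ a = a₄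
  m₁ : a₁ ∈ A
  m₂ : a₂ ∈ A
  m₃ : a₃ ∈ A
  m₄ : a₄ ∈ A
  hB : ∀ c ∈ B, ∀ c' ∈ B, ρ c c' ≤ D₀
  hV : ∀ a ∈ A, ∀ c ∈ B, ∀ a' ∈ A, ∀ c' ∈ B, ρ (a * c) (a' * c') ≤ Dv
  hlt : D₀ < Dv
  her : ρ e r = Dv
  e₁ : a₁⁻¹ * e ∈ B
  e₂ : a₂⁻¹ * e ∈ B
  r₃ : a₃⁻¹ * r ∈ B
  r₄ : a₄⁻¹ * r ∈ B
  hu₁ : u₁ ∈ B
  hu₂ : u₂ ∈ B
  hu : ρ u₁ u₂ = D₀

/-- The domain of the translations. -/
def good (ρ : Γ → Γ → ℝ) (B : Finset Γ) (Dv : ℝ) (x r : Γ) (b : Γ) : Prop :=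
  b ∈ B ∧ ρ (x * b) r = Dv

namespace Side

variable {A B : Finset Γ} {a₁ a₂ a₃ a₄ e r u₁ u₂ : Γ} {D₀ Dv : ℝ}

/-- Swapping the two sides of the pair. -/
theorem swap (h : Side ρ A B a₁ a₂ a₃ a₄ e r u₁ u₂ D₀ Dv) :
    Side ρ A B a₃ a₄ a₁ a₂ r e u₁ u₂ D₀ Dv where
  hρ := h.hρ
  hNU := h.hNU
  hA := fun a ha => by
    rcases h.hA a ha with h1 | h1 | h1 | h1 <;> simp [h1]
  m₁ := h.m₃
  m₂ := h.m₄
  m₃ := h.m₁
  m₄ := h.m₂
  hB := h.hB
  hV := h.hV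
  hlt := h.hlt
  her := by rw [h.hρ.symm, h.her]
  e₁ := h.r₃
  e₂ := h.r₄
  r₃ := h.e₁
  r₄ := h.e₂
  hu₁ := h.hu₁
  hu₂ := h.hu₂
  hu := h.hu

/-- Interchanging the first two elements. -/
theorem flip (h : Side ρ A B a₁ a₂ a₃ a₄ e r u₁ u₂ D₀ Dv) :
    Side ρ A B a₂ a₁ a₃ a₄ e r u₁ u₂ D₀ Dv where
  hρ := h.hρ
  hNU := h.hNU
  hA := fun a ha => by
    rcases h.hA a ha with h1 | h1 | h1 | h1 <;> simp [h1]
  m₁ := h.m₂
  m₂ := h.m₁
  m₃ := h.m₃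
  m₄ := h.m₄
  hB := h.hB
  hV := h.hV
  hlt := h.hlt
  her := h.her
  e₁ := h.e₂
  e₂ := h.e₁
  r₃ := h.r₃
  r₄ := h.r₄
  hu₁ := h.hu₁
  hu₂ := h.hu₂
  hu := h.hu

theorem mem_of_r (h : Side ρ A B a₁ a₂ a₃ a₄ e r u₁ u₂ D₀ Dv) : ∃ a ∈ A, ∃ c ∈ B, r = a * c :=
  ⟨a₃, h.m₃, _, h.r₃, by simp⟩

theorem bound_r (h : Side ρ A B a₁ a₂ a₃ a₄ e r u₁ u₂ D₀ Dv) {x c : Γ} (hx : x ∈ A) (hc : c ∈ B) :
    ρ (x * c) r ≤ Dv := by
  obtain ⟨a, ha, c', hc', hr⟩ := h.mem_of_r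
  rw [hr]
  exact h.hV _ hx _ hc _ ha _ hc'

/-- Diametral points have partners. -/
theorem partner (h : Side ρ A B a₁ a₂ a₃ a₄ e r u₁ u₂ D₀ Dv) {x b : Γ} (hx : x ∈ A)
    (hb : good ρ B Dv x r b) : ∃ b' ∈ B, ρ b b' = D₀ := by
  have hf := h.hρ.four (x * u₁) (x * u₂) (x * b) r
  have e1 : ρ (x * u₁) (x * u₂) = D₀ := by
    rw [rho_inv h.hρ, h.hu]
  rw [e1, hb.2] at hf
  have b1 := h.bound_r hx h.hu₁
  have b2 := h.bound_r hx h.hu₂
  rcases le_max_iff.mp hf with h1 | h1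
  · refine ⟨u₁, h.hu₁, ?_⟩
    rw [rho_inv h.hρ] at h1
    have h2 := h.hB _ h.hu₁ _ hb.1
    rw [h.hρ.symm]
    linarith
  · refine ⟨u₂, h.hu₂, ?_⟩
    rw [rho_inv h.hρ] at h1
    have h2 := h.hB _ h.hu₂ _ hb.1
    rw [h.hρ.symm]
    linarith

/-- Elements outside the domain are close to each other. -/
theorem bad_lt (h : Side ρ A B a₁ a₂ a₃ a₄ e r u₁ u₂ D₀ Dv) {x b b' : Γ} (hx : x ∈ A)
    (hxe : x⁻¹ * e ∈ B) (hb : b ∈ B) (hb' : b' ∈ B) (hg : ¬ good ρ B Dv x r b)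
    (hg' : ¬ good ρ B Dv x r b') : ρ b b' < D₀ := by
  have hf := h.hρ.four (x * b) (x * b') r e
  have ee : e = x * (x⁻¹ * e) := by simp
  have hre : ρ r e = Dv := by rw [h.hρ.symm, h.her]
  rw [rho_inv h.hρ, hre] at hf
  have l1 : ρ (x * b) r < Dv := lt_of_le_of_ne (h.bound_r hx hb) (fun h0 => hg ⟨hb, h0⟩)
  have l2 : ρ (x * b') r < Dv := lt_of_le_of_ne (h.bound_r hx hb') (fun h0 => hg' ⟨hb', h0⟩)
  have l3 : ρ (x * b) e ≤ D₀ := by
    rw [ee, rho_inv h.hρ]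
    exact h.hB _ hb _ hxe
  have l4 : ρ (x * b') e ≤ D₀ := by
    rw [ee, rho_inv h.hρ]
    exact h.hB _ hb' _ hxe
  rcases le_max_iff.mp hf with h1 | h1 <;> linarith

/-- The domain is saturated for the closeness relation. -/
theorem sat (h : Side ρ A B a₁ a₂ a₃ a₄ e r u₁ u₂ D₀ Dv) {x b b' w : Γ} (hx : x ∈ A)
    (hb : good ρ B Dv x r b) (hb' : b' ∈ B) (hw : w ∈ B) (hpw : ρ b' w = D₀)
    (hE : ρ b b' < D₀) : good ρ B Dv x r b' := by
  refine ⟨hb', ?_⟩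
  have hf := h.hρ.four (x * b) r (x * b') (x * w)
  rw [hb.2, rho_inv h.hρ, hpw] at hf
  have b1 := h.bound_r hx hw
  have b2 := h.bound_r hx hb'
  rw [h.hρ.symm r (x * w), h.hρ.symm r (x * b')] at hf
  rcases le_max_iff.mp hf with h1 | h1
  · rw [rho_inv h.hρ] at h1
    linarith
  · rw [rho_inv h.hρ] at h1
    have h2 := h.hB _ hb.1 _ hw
    linarith

/-- Diametral products have no label in common with the partner `r`. -/
theorem no_label (h : Side ρ A B a₁ a₂ a₃ a₄ e r u₁ u₂ D₀ Dv) {x b : Γ}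
    (hb : good ρ B Dv x r b) {y : Γ} (hy : y⁻¹ * r ∈ B) : y⁻¹ * (x * b) ∉ B := by
  intro hmem
  have h1 := h.hB _ hmem _ hy
  rw [rho_inv h.hρ, hb.2] at h1
  linarith [h.hlt]

/-- A step along the translation. -/
theorem step (h : Side ρ A B a₁ a₂ a₃ a₄ e r u₁ u₂ D₀ Dv) (h12 : a₁ ≠ a₂) {b : Γ}
    (hb : good ρ B Dv a₁ r b) : good ρ B Dv a₂ r ((a₂⁻¹ * a₁) * b) := by
  obtain ⟨a', ha', b', hb', hne, heq⟩ := h.hNU a₁ h.m₁ b hb.1
  have n3 : a' ≠ a₃ := by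
    rintro rfl
    apply h.no_label hb h.r₃
    rw [← heq, inv_mul_cancel_left]
    exact hb'
  have n4 : a' ≠ a₄ := by
    rintro rfl
    apply h.no_label hb h.r₄
    rw [← heq, inv_mul_cancel_left]
    exact hb'
  have e2 : a' = a₂ := by
    rcases h.hA a' ha' with h1 | h1 | h1 | h1
    · exact absurd h1 hne
    · exact h1
    · exact absurd h1 n3
    · exact absurd h1 n4
  subst e2
  have e3 : a'⁻¹ * a₁ * b = b' := by
    rw [mul_assoc, ← heq, inv_mul_cancel_left]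
  constructor
  · rw [e3]
    exact hb'
  · rw [e3, heq]
    exact hb.2

theorem good_zero (h : Side ρ A B a₁ a₂ a₃ a₄ e r u₁ u₂ D₀ Dv) :
    ¬ ρ u₁ u₂ < D₀ := by
  rw [h.hu]
  exact lt_irrefl _

open Classical in
/-- The set of elements having a partner at maximal distance. -/
def partnered (ρ : Γ → Γ → ℝ) (B : Finset Γ) (D₀ : ℝ) : Finset Γ :=
  B.filter (fun b => ∃ b' ∈ B, ρ b b' = D₀)

theorem mem_partnered {B : Finset Γ} {D₀ : ℝ} {b : Γ} :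
    b ∈ partnered ρ B D₀ ↔ b ∈ B ∧ ∃ b' ∈ B, ρ b b' = D₀ := by
  classical
  simp [partnered]

theorem chain (h : Side ρ A B a₁ a₂ a₃ a₄ e r u₁ u₂ D₀ Dv)
    (ht : ∀ g : Γ, g ≠ 1 → ¬ IsOfFinOrder g) (h12 : a₁ ≠ a₂) :
    ChainData (partnered ρ B D₀) (a₂⁻¹ * a₁) (good ρ B Dv a₁ r) (good ρ B Dv a₂ r)
      (fun b b' => ρ b b' < D₀) where
  inf := ht _ (by
    intro h0
    exact h12 (inv_mul_eq_one.mp h0).symm)
  mem₁ := fun b hb => mem_partnered.mpr ⟨hb.1, h.partner h.m₁ hb⟩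
  mem₂ := fun b hb => mem_partnered.mpr ⟨hb.1, h.partner h.m₂ hb⟩
  fwd := fun b hb => h.step h12 hb
  bwd := fun b hb => by
    have := h.flip.step h12.symm hb
    rwa [show (a₂⁻¹ * a₁)⁻¹ = a₁⁻¹ * a₂ by group]
  Esymm := fun b b' hE => by
    show ρ b' b < D₀
    rw [h.hρ.symm]
    exact hE
  Efwd := fun b b' hE => by
    show ρ _ _ < D₀
    rw [rho_inv h.hρ]
    exact hE
  Ebwd := fun b b' hE => by
    show ρ _ _ < D₀
    rw [rho_inv h.hρ]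
    exact hE
  sat₁ := fun b b' hb hb' hE => by
    obtain ⟨hb1, w, hw, hpw⟩ := mem_partnered.mp hb'
    exact h.sat h.m₁ hb hb1 hw hpw hE
  sat₂ := fun b b' hb hb' hE => by
    obtain ⟨hb1, w, hw, hpw⟩ := mem_partnered.mp hb'
    exact h.sat h.m₂ hb hb1 hw hpw hE
  bad₂ := fun b b' hb hb' hg hg' =>
    h.bad_lt h.m₂ h.e₂ (mem_partnered.mp hb).1 (mem_partnered.mp hb').1 hg hg'

/-- The outcome of the chain analysis. -/
theorem outcome (h : Side ρ A B a₁ a₂ a₃ a₄ e r u₁ u₂ D₀ Dv)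
    (ht : ∀ g : Γ, g ≠ 1 → ¬ IsOfFinOrder g) (h12 : a₁ ≠ a₂) (h34 : a₃ ≠ a₄) :
    ∃ b, good ρ B Dv a₃ e b ∧
      ((a₄⁻¹ * a₃ = a₂⁻¹ * a₁ ∧ good ρ B Dv a₁ r b) ∨
       (a₄⁻¹ * a₃ = (a₂⁻¹ * a₁)⁻¹ ∧ good ρ B Dv a₂ r b)) := by
  have hu₁ : u₁ ∈ partnered ρ B D₀ := mem_partnered.mpr ⟨h.hu₁, u₂, h.hu₂, h.hu⟩
  have hu₂ : u₂ ∈ partnered ρ B D₀ :=
    mem_partnered.mpr ⟨h.hu₂, u₁, h.hu₁, by rw [h.hρ.symm, h.hu]⟩
  refine (h.chain ht h12).main_chain ht (V := a₄⁻¹ * a₃) (G₃ := good ρ B Dv a₃ e)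
    (G₄ := good ρ B Dv a₄ e) ?_ ?_ ?_ ?_ ?_ ?_ ?_ hu₁ hu₂ h.good_zero
  · intro h0
    exact h34 (inv_mul_eq_one.mp h0).symm
  · exact fun b hb => mem_partnered.mpr ⟨hb.1, h.swap.partner h.m₃ hb⟩
  · exact fun b hb => mem_partnered.mpr ⟨hb.1, h.swap.partner h.m₄ hb⟩
  · exact fun b hb => h.swap.step h34 hb
  · intro b b' hE
    show ρ _ _ < D₀
    rw [rho_inv h.hρ]
    exact hE
  · intro b b' hb hb' hE
    obtain ⟨hb1, w, hw, hpw⟩ := mem_partnered.mp hb'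
    exact h.swap.sat h.m₃ hb hb1 hw hpw hE
  · intro b b' hb hb' hg hg'
    exact h.swap.bad_lt h.m₃ h.r₃ (mem_partnered.mp hb).1 (mem_partnered.mp hb').1 hg hg'

end Side

end Geometry

section Contra

variable {K : Type w} [Field K] {Γ : Type u} [Group Γ] {ρ : Γ → Γ → ℝ}

/-- The configuration cannot occur in a torsion-free group. -/
theorem Side.contra {α β : MonoidAlgebra K Γ} {a₁ a₂ a₃ a₄ e r u₁ u₂ : Γ} {D₀ Dv : ℝ}
    (h : Side ρ α.coeff.support β.coeff.support a₁ a₂ a₃ a₄ e r u₁ u₂ D₀ Dv)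
    (ht : ∀ g : Γ, g ≠ 1 → ¬ IsOfFinOrder g) (hαβ : α * β = 0)
    (h12 : a₁ ≠ a₂) (h13 : a₁ ≠ a₃) (h14 : a₁ ≠ a₄) (h23 : a₂ ≠ a₃) (h24 : a₂ ≠ a₄)
    (h34 : a₃ ≠ a₄) : False := by
  have hβ0 : β ≠ 0 := by
    intro h0
    have := h.hu₁
    simp [h0] at this
  have hdec := decomp_four h12 h13 h14 h23 h24 h34 h.hA
  have hc₁ : α.coeff a₁ ≠ 0 := Finsupp.mem_support_iff.mp h.m₁
  have hc₂ : α.coeff a₂ ≠ 0 := Finsupp.mem_support_iff.mp h.m₂
  have hcoef : ∀ g : Γ, α.coeff a₁ * β.coeff (a₁⁻¹ * g) + α.coeff a₂ * β.coeff (a₂⁻¹ * g)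
      + α.coeff a₃ * β.coeff (a₃⁻¹ * g) + α.coeff a₄ * β.coeff (a₄⁻¹ * g) = 0 := by
    intro g
    have h1 := congrArg (fun u => u.coeff g) hαβ
    have h2 : ((single a₁ (α.coeff a₁) + single a₂ (α.coeff a₂) + single a₃ (α.coeff a₃)
      + single a₄ (α.coeff a₄)) * β).coeff g = 0 := by
      rw [← hdec]
      simpa using h1
    simpa only [add_mul, coeff_add, Finsupp.add_apply, coeff_single_mul_apply] using h2
  have hz : ∀ {x : Γ}, x ∉ β.coeff.support → β.coeff x = 0 := fun hx => by simpa using hx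
  obtain ⟨b, hb3, hcase⟩ := h.outcome ht h12 h34
  have hbz : β.coeff b ≠ 0 := Finsupp.mem_support_iff.mp hb3.1
  -- the relation from the second side
  have hrel3 : α.coeff a₃ * β.coeff b + α.coeff a₄ * β.coeff ((a₄⁻¹ * a₃) * b) = 0 := by
    have h1 := hcoef (a₃ * b)
    rw [hz (h.swap.no_label hb3 h.e₁), hz (h.swap.no_label hb3 h.e₂)] at h1
    rw [inv_mul_cancel_left, ← mul_assoc] at h1
    simpa using h1
  rcases hcase with ⟨hV, hb1⟩ | ⟨hV, hb2⟩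
  · have hrel1 : α.coeff a₁ * β.coeff b + α.coeff a₂ * β.coeff ((a₂⁻¹ * a₁) * b) = 0 := by
      have h1 := hcoef (a₁ * b)
      rw [hz (h.no_label hb1 h.r₃), hz (h.no_label hb1 h.r₄)] at h1
      rw [inv_mul_cancel_left, ← mul_assoc] at h1
      simpa using h1
    rw [hV] at hrel3
    have hrel : α.coeff a₁ * α.coeff a₄ = α.coeff a₂ * α.coeff a₃ := by
      apply mul_right_cancel₀ hbz
      linear_combination α.coeff a₄ * hrel1 - α.coeff a₂ * hrel3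
    apply hβ0
    refine four_factor ht (x₁ := a₁) (x₂ := a₂) (x₃ := a₃) (x₄ := a₄) (T := a₂⁻¹ * a₁)
      (by simp) (by rw [← hV]; simp) ?_ h24 hc₂ hrel ?_
    · intro h0
      exact h12 (inv_mul_eq_one.mp h0).symm
    · rw [← hdec]
      exact hαβ
  · have hrel2 : α.coeff a₂ * β.coeff b + α.coeff a₁ * β.coeff ((a₁⁻¹ * a₂) * b) = 0 := by
      have h1 := hcoef (a₂ * b)
      rw [hz (h.no_label hb2 h.r₃), hz (h.no_label hb2 h.r₄)] at h1
      rw [inv_mul_cancel_left, ← mul_assoc] at h1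
      simp only [mul_zero, add_zero] at h1
      rw [add_comm]
      exact h1
    have hV' : a₄⁻¹ * a₃ = a₁⁻¹ * a₂ := by
      rw [hV]
      group
    rw [hV'] at hrel3
    have hrel : α.coeff a₂ * α.coeff a₄ = α.coeff a₁ * α.coeff a₃ := by
      apply mul_right_cancel₀ hbz
      linear_combination α.coeff a₄ * hrel2 - α.coeff a₁ * hrel3
    apply hβ0
    refine four_factor ht (x₁ := a₂) (x₂ := a₁) (x₃ := a₃) (x₄ := a₄) (T := a₁⁻¹ * a₂)
      (by simp) (by rw [← hV']; simp) ?_ h14 hc₁ hrel ?_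
    · intro h0
      exact h12 (inv_mul_eq_one.mp h0)
    · have e : single a₂ (α.coeff a₂) + single a₁ (α.coeff a₁) + single a₃ (α.coeff a₃)
          + single a₄ (α.coeff a₄) = α := by
        rw [add_comm (single a₂ (α.coeff a₂))]
        exact hdec.symm
      rw [e]
      exact hαβ

end Contra

/-- The diameter is stable for four term zero divisors in a torsion-free group. -/
theorem diam_four {K : Type w} [Field K] {Γ : Type u} [Group Γ] {ρ : Γ → Γ → ℝ}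
    (hρ : IsTreeDist Γ ρ) (ht : ∀ g : Γ, g ≠ 1 → ¬ IsOfFinOrder g)
    {α β : MonoidAlgebra K Γ} (hαβ : α * β = 0) (hcard : α.coeff.support.card ≤ 4) {D : ℝ}
    (hD : ∀ c ∈ β.coeff.support, ∀ c' ∈ β.coeff.support, ρ c c' ≤ D) :
    ∀ a ∈ α.coeff.support, ∀ c ∈ β.coeff.support, ∀ a' ∈ α.coeff.support,
      ∀ c' ∈ β.coeff.support, ρ (a * c) (a' * c') ≤ D := by
  classical
  intro x hx z hz x' hx' z' hz'
  set A := α.coeff.support with hA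
  set B := β.coeff.support with hB
  have hNU : NoUnique A B := noUnique_of_mul_eq_zero hαβ
  obtain ⟨⟨u₁, u₂⟩, hu, hmax⟩ := Finset.exists_max_image (B ×ˢ B)
    (fun p : Γ × Γ => ρ p.1 p.2) ⟨(z, z), Finset.mem_product.mpr ⟨hz, hz⟩⟩
  rw [Finset.mem_product] at hu
  have hB0 : ∀ c ∈ B, ∀ c' ∈ B, ρ c c' ≤ ρ u₁ u₂ := fun c hc c' hc' =>
    hmax (c, c') (Finset.mem_product.mpr ⟨hc, hc'⟩)
  have hD0 : ρ u₁ u₂ ≤ D := hD _ hu.1 _ hu.2
  obtain ⟨⟨⟨p₁, p₂⟩, ⟨q₁, q₂⟩⟩, hpq, hmaxV⟩ := Finset.exists_max_image ((A ×ˢ B) ×ˢ (A ×ˢ B))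
    (fun p : (Γ × Γ) × (Γ × Γ) => ρ (p.1.1 * p.1.2) (p.2.1 * p.2.2))
    ⟨((x, z), (x', z')), by simp [hx, hz, hx', hz']⟩
  simp only [Finset.mem_product] at hpq
  obtain ⟨⟨hp₁, hp₂⟩, hq₁, hq₂⟩ := hpq
  have hV0 : ∀ a ∈ A, ∀ c ∈ B, ∀ a' ∈ A, ∀ c' ∈ B, ρ (a * c) (a' * c') ≤ ρ (p₁ * p₂) (q₁ * q₂) :=
    fun a ha c hc a' ha' c' hc' => hmaxV ((a, c), (a', c')) (by simp [ha, hc, ha', hc'])
  refine (hV0 x hx z hz x' hx' z' hz').trans ?_
  by_contra hcon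
  push Not at hcon
  have hlt : ρ u₁ u₂ < ρ (p₁ * p₂) (q₁ * q₂) := lt_of_le_of_lt hD0 hcon
  -- labels
  set e := p₁ * p₂ with he
  set r := q₁ * q₂ with hr
  set Le := A.filter (fun a => a⁻¹ * e ∈ B) with hLe
  set Lr := A.filter (fun a => a⁻¹ * r ∈ B) with hLr
  have two : ∀ a ∈ A, ∀ c ∈ B, 2 ≤ (A.filter (fun y => y⁻¹ * (a * c) ∈ B)).card := by
    intro a ha c hc
    obtain ⟨a', ha', b', hb', hne, heq⟩ := hNU a ha c hc
    have m1 : a ∈ A.filter (fun y => y⁻¹ * (a * c) ∈ B) := by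
      simp [ha, hc]
    have m2 : a' ∈ A.filter (fun y => y⁻¹ * (a * c) ∈ B) := by
      simp only [Finset.mem_filter]
      refine ⟨ha', ?_⟩
      rw [← heq, inv_mul_cancel_left]
      exact hb'
    exact Finset.one_lt_card.mpr ⟨a, m1, a', m2, hne.symm⟩
  have hLe2 : 2 ≤ Le.card := two _ hp₁ _ hp₂
  have hLr2 : 2 ≤ Lr.card := two _ hq₁ _ hq₂
  have hdisj : Disjoint Le Lr := by
    rw [Finset.disjoint_left]
    intro a h1 h2
    rw [hLe, Finset.mem_filter] at h1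
    rw [hLr, Finset.mem_filter] at h2
    have h3 := hB0 _ h1.2 _ h2.2
    rw [rho_inv hρ] at h3
    linarith
  have hsum : (Le ∪ Lr).card = Le.card + Lr.card := Finset.card_union_of_disjoint hdisj
  have hsub : Le ∪ Lr ⊆ A := Finset.union_subset (Finset.filter_subset _ _)
    (Finset.filter_subset _ _)
  have hle := Finset.card_le_card hsub
  have hLe3 : Le.card = 2 := by omega
  have hLr3 : Lr.card = 2 := by omega
  have hAeq : Le ∪ Lr = A := Finset.eq_of_subset_of_card_le hsub (by omega)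
  obtain ⟨a₁, a₂, h12, hLeq⟩ := Finset.card_eq_two.mp hLe3
  obtain ⟨a₃, a₄, h34, hLrq⟩ := Finset.card_eq_two.mp hLr3
  have mem1 : a₁ ∈ Le := by simp [hLeq]
  have mem2 : a₂ ∈ Le := by simp [hLeq]
  have mem3 : a₃ ∈ Lr := by simp [hLrq]
  have mem4 : a₄ ∈ Lr := by simp [hLrq]
  have ne : ∀ {y y' : Γ}, y ∈ Le → y' ∈ Lr → y ≠ y' := by
    intro y y' hy hy' hyy
    subst hyy
    exact Finset.disjoint_left.mp hdisj hy hy'
  have hside : Side ρ A B a₁ a₂ a₃ a₄ e r u₁ u₂ (ρ u₁ u₂) (ρ e r) :=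
    { hρ := hρ
      hNU := hNU
      hA := by
        intro a ha
        rw [← hAeq, Finset.mem_union, hLeq, hLrq] at ha
        simp only [Finset.mem_insert, Finset.mem_singleton] at ha
        tauto
      m₁ := (Finset.mem_filter.mp mem1).1
      m₂ := (Finset.mem_filter.mp mem2).1
      m₃ := (Finset.mem_filter.mp mem3).1
      m₄ := (Finset.mem_filter.mp mem4).1
      hB := hB0
      hV := hV0
      hlt := hlt
      her := rfl
      e₁ := (Finset.mem_filter.mp mem1).2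
      e₂ := (Finset.mem_filter.mp mem2).2
      r₃ := (Finset.mem_filter.mp mem3).2
      r₄ := (Finset.mem_filter.mp mem4).2
      hu₁ := hu.1
      hu₂ := hu.2
      hu := rfl }
  exact hside.contra ht hαβ h12 (ne mem1 mem3) (ne mem1 mem4) (ne mem2 mem3) (ne mem2 mem4) h34

end Vale.Agent.Lib.P201
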