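import Mathlib
import Vale.Agent.Lib.P201.Final3
import Vale.Agent.Lib.P201.Four

noncomputable section

namespace Vale.Agent.Lib.P201

open MonoidAlgebra

universe u v w

section

variable {G : Type u} [Group G] {K : Type w} [Field K]

/-- The case of at most four terms in a torsion-free group. -/
theorem invariant_pair_four (ht : ∀ g : G, g ≠ 1 → ¬ IsOfFinOrder g)
    {α β : MonoidAlgebra K G} (hβ : β ≠ 0) (h : α * β = 0)
    (hcard : α.coeff.support.card ≤ 4)
    {X : Type v} [MulAction (diffSubgroup (α.coeff.support : Set G)) X]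
    {d : X → X → ℝ} (hd : IsTreeDist (diffSubgroup (α.coeff.support : Set G)) d) (o : X) :
    ∃ p q : X, ∀ (g : diffSubgroup (α.coeff.support : Set G)) (v : X),
      max (d (g • v) p) (d (g • v) q) = max (d v p) (d v q) := by
  classical
  refine invariant_pair_aux hβ h hd o ?_
  intro a₁ ha₁ b₀ hb₀ D hD
  have hmem : ∀ a ∈ α.coeff.support,
      a₁⁻¹ * a ∈ diffSubgroup (α.coeff.support : Set G) := fun a ha =>
    mem_diffSubgroup (by exact_mod_cast ha₁) (by exact_mod_cast ha)
  have ht' : ∀ g : diffSubgroup (α.coeff.support : Set G), g ≠ 1 → ¬ IsOfFinOrder g := by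
    intro g hg hfo
    apply ht (g : G)
    · intro h0
      exact hg (Subtype.ext h0)
    · exact MonoidHom.isOfFinOrder (diffSubgroup (α.coeff.support : Set G)).subtype hfo
  have hρ : IsTreeDist (diffSubgroup (α.coeff.support : Set G))
      (fun x y : diffSubgroup (α.coeff.support : Set G) => d (x • o) (y • o)) :=
    { symm := fun x y => hd.symm _ _
      tri := fun x y z => hd.tri _ _ _
      inv := fun g x y => by
        show d ((g * x) • o) ((g * y) • o) = d (x • o) (y • o)
        rw [mul_smul, mul_smul, hd.inv]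
      four := fun x y z w => hd.four _ _ _ _ }
  exact diam_four hρ ht' (res_mul_eq_zero hmem b₀ h) ((card_resL_le _ _ _).trans hcard) hD

end

/-- The theorem on zero divisors with at most three terms, or four terms in a torsion-free
group. -/
theorem main_four :
    (∀ (K : Type w) [Field K] (G : Type u) [Group G] (n : ℕ),
      (n ≤ 3 ∨ (n ≤ 4 ∧ ∀ g : G, g ≠ 1 → ¬ IsOfFinOrder g)) →
      (∀ α β : MonoidAlgebra K G, β ≠ 0 → α * β = 0 → α.coeff.support.card ≤ n →
        TreeRigid.{u, v} (diffSubgroup (α.coeff.support : Set G))) ∧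
      (∀ (V : Type v) (T : SimpleGraph V), T.IsTree → ∀ [MulAction G V],
        (∀ (g : G) (x y : V), T.Adj x y → T.Adj (g • x) (g • y)) →
        (∀ (g : G) (x y : V), T.Adj x y → g • x = y → g • y ≠ x) →
        (∀ (x : V) (γ δ : MonoidAlgebra K (MulAction.stabilizer G x)),
          γ.coeff.support.card ≤ n → γ * δ = 0 → γ = 0 ∨ δ = 0) →
        ∀ α β : MonoidAlgebra K G, (α.coeff.support.card ≤ n ∨ β.coeff.support.card ≤ n) →
          α * β = 0 → α = 0 ∨ β = 0)) := by
  intro K _ G _ n hn
  have key : ∀ (α β : MonoidAlgebra K G), β ≠ 0 → α * β = 0 → α.coeff.support.card ≤ n →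
      ∀ (X : Type v) [MulAction (diffSubgroup (α.coeff.support : Set G)) X]
        {d : X → X → ℝ}, IsTreeDist (diffSubgroup (α.coeff.support : Set G)) d → X →
      ∃ p q : X, ∀ (g : diffSubgroup (α.coeff.support : Set G)) (v : X),
        max (d (g • v) p) (d (g • v) q) = max (d v p) (d v q) := by
    intro α β hβ h hcard X _ d hd o
    rcases hn with hn | ⟨hn, ht⟩
    · exact invariant_pair_three hβ h (hcard.trans hn) hd o
    · exact invariant_pair_four ht hβ h (hcard.trans hn) hd o
  have keyR : ∀ (α β : MonoidAlgebra K G), β ≠ 0 → α * β = 0 → α.coeff.support.card ≤ n →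
      ∀ [MulAction (diffSubgroup (α.coeff.support : Set G)) ℝ]
        {d : ℝ → ℝ → ℝ}, IsTreeDist (diffSubgroup (α.coeff.support : Set G)) d → ℝ →
      ∃ p q : ℝ, ∀ (g : diffSubgroup (α.coeff.support : Set G)) (v : ℝ),
        max (d (g • v) p) (d (g • v) q) = max (d v p) (d v q) := by
    intro α β hβ h hcard _ d hd o
    rcases hn with hn | ⟨hn, ht⟩
    · exact invariant_pair_three hβ h (hcard.trans hn) hd o
    · exact invariant_pair_four ht hβ h (hcard.trans hn) hd o
  refine ⟨?_, ?_⟩
  · intro α β hβ h hcard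
    refine treeRigid_of_pairs ?_ ?_
    · intro _ d hd
      exact keyR α β hβ h hcard hd 0
    · intro X _ d hd o
      exact key α β hβ h hcard X hd o
  · intro V T hT _ hadj hinv hstab α β hcard h
    refine closure_of_pairs hT hadj hinv hstab ?_ α β hcard h
    intro α β hβ h hcard d hd o
    exact key α β hβ h hcard V hd o

end Vale.Agent.Lib.P201
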