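import Mathlib
import Vale.Agent.Lib.P201.Pair

noncomputable section

namespace Vale.Agent.Lib.P201

open MonoidAlgebra

universe u v w

section Quasi

variable {Γ : Type u} [Group Γ] {φ : Γ → ℝ} {Δ : ℝ}

theorem eq_zero_of_nat_mul_le {c C : ℝ} (h : ∀ n : ℕ, (n : ℝ) * |c| ≤ C) : c = 0 := by
  by_contra hc
  have hpos : 0 < |c| := abs_pos.mpr hc
  obtain ⟨n, hn⟩ := exists_nat_gt (C / |c|)
  have h1 := h n
  rw [div_lt_iff₀ hpos] at hn
  linarith

theorem homog_one (hh : ∀ (x : Γ) (n : ℕ), φ (x ^ n) = n * φ x) : φ 1 = 0 := by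
  have h1 := hh 1 2
  rw [one_pow] at h1
  push_cast at h1
  linarith

theorem homog_inv (hq : ∀ x y : Γ, |φ (x * y) - φ x - φ y| ≤ Δ)
    (hh : ∀ (x : Γ) (n : ℕ), φ (x ^ n) = n * φ x) (x : Γ) : φ x⁻¹ = - φ x := by
  have key : φ x + φ x⁻¹ = 0 := by
    apply eq_zero_of_nat_mul_le (C := Δ)
    intro n
    have h1 := hq (x ^ n) (x⁻¹ ^ n)
    have e : x ^ n * x⁻¹ ^ n = 1 := by rw [inv_pow, mul_inv_cancel]
    rw [e, homog_one hh, hh, hh] at h1
    have e2 : (0 : ℝ) - (n : ℝ) * φ x - (n : ℝ) * φ x⁻¹ = - ((n : ℝ) * (φ x + φ x⁻¹)) := by ring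
    rw [e2, abs_neg, abs_mul, Nat.abs_cast] at h1
    exact h1
  linarith

theorem homog_conj (hq : ∀ x y : Γ, |φ (x * y) - φ x - φ y| ≤ Δ)
    (hh : ∀ (x : Γ) (n : ℕ), φ (x ^ n) = n * φ x) (g x : Γ) : φ (g * x * g⁻¹) = φ x := by
  have key : φ (g * x * g⁻¹) - φ x = 0 := by
    apply eq_zero_of_nat_mul_le (C := 2 * Δ)
    intro n
    have h1 := hq (g * x ^ n) g⁻¹
    have h2 := hq g (x ^ n)
    have e : g * x ^ n * g⁻¹ = (g * x * g⁻¹) ^ n := (conj_pow).symm
    rw [e, hh (g * x * g⁻¹) n, homog_inv hq hh g] at h1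
    rw [hh x n] at h2
    have h3 : (n : ℝ) * |φ (g * x * g⁻¹) - φ x| = |(n : ℝ) * (φ (g * x * g⁻¹) - φ x)| := by
      rw [abs_mul, Nat.abs_cast]
    rw [h3, abs_le]
    rw [abs_le] at h1 h2
    constructor
    · nlinarith [h1.1, h1.2, h2.1, h2.2]
    · nlinarith [h1.1, h1.2, h2.1, h2.2]
  linarith

/-- The key inequality: insert an element of `A⁻¹ A` into a maximising quotient of `B`. -/
theorem quasi_bound [DecidableEq Γ] {A B : Finset Γ} (hA : A.card ≤ 3) (hNU : NoUnique A B)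
    (hB : B.Nonempty) (hq : ∀ x y : Γ, |φ (x * y) - φ x - φ y| ≤ Δ)
    (hh : ∀ (x : Γ) (n : ℕ), φ (x ^ n) = n * φ x) {a a' : Γ} (ha : a ∈ A) (ha' : a' ∈ A) :
    φ (a⁻¹ * a') ≤ Δ := by
  obtain ⟨⟨x, y⟩, hm, hmax⟩ := Finset.exists_max_image (B ×ˢ B)
    (fun p : Γ × Γ => φ (p.1⁻¹ * p.2)) (hB.product hB)
  rw [Finset.mem_product] at hm
  obtain ⟨c, _, e₁, he₁, e₂, he₂, h1, h2⟩ := pigeon hA hNU ha hm.1 ha' hm.2
  have e : x⁻¹ * (a⁻¹ * a') * y = e₁⁻¹ * e₂ := by
    have : e₁⁻¹ * e₂ = (c * e₁)⁻¹ * (c * e₂) := by group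
    rw [this, h1, h2]
    group
  have hle : φ (x⁻¹ * (a⁻¹ * a') * y) ≤ φ (x⁻¹ * y) := by
    rw [e]
    exact hmax (e₁, e₂) (Finset.mem_product.mpr ⟨he₁, he₂⟩)
  have c1 : φ (x⁻¹ * (a⁻¹ * a') * y) = φ ((a⁻¹ * a') * (y * x⁻¹)) := by
    have := homog_conj hq hh x⁻¹ ((a⁻¹ * a') * (y * x⁻¹))
    rw [← this]
    congr 1
    group
  have c2 : φ (x⁻¹ * y) = φ (y * x⁻¹) := by
    have := homog_conj hq hh x⁻¹ (y * x⁻¹)
    rw [← this]
    congr 1
    group
  have q := abs_le.mp (hq (a⁻¹ * a') (y * x⁻¹))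
  rw [c1, c2] at hle
  linarith [q.1, q.2]

end Quasi

section Algebra

variable {K : Type w} [Field K] {G : Type u} [Group G]

theorem support_nonempty_of_ne {β : MonoidAlgebra K G} (hβ : β ≠ 0) :
    β.coeff.support.Nonempty := by
  rw [Finsupp.support_nonempty_iff]
  exact fun h0 => hβ (MonoidAlgebra.coeff_inj.mp (by simpa using h0))

/-- A zero divisor with at most three terms: every homogeneous quasimorphism of the subgroup
generated by the quotients is bounded by its defect on these quotients. -/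
theorem quasi_three {α β : MonoidAlgebra K G} (hβ : β ≠ 0) (h : α * β = 0)
    (hcard : α.coeff.support.card ≤ 3)
    (φ : diffSubgroup (α.coeff.support : Set G) → ℝ) (Δ : ℝ)
    (hq : ∀ x y, |φ (x * y) - φ x - φ y| ≤ Δ)
    (hh : ∀ (x : diffSubgroup (α.coeff.support : Set G)) (n : ℕ), φ (x ^ n) = n * φ x)
    {a b : G} (ha : a ∈ α.coeff.support) (hb : b ∈ α.coeff.support)
    (hs : a⁻¹ * b ∈ diffSubgroup (α.coeff.support : Set G)) :
    |φ ⟨a⁻¹ * b, hs⟩| ≤ Δ := by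
  classical
  obtain ⟨b₀, hb₀⟩ := support_nonempty_of_ne hβ
  set H := diffSubgroup (α.coeff.support : Set G) with hH
  have hmem : ∀ x ∈ α.coeff.support, a⁻¹ * x ∈ H := fun x hx =>
    mem_diffSubgroup (by exact_mod_cast ha) (by exact_mod_cast hx)
  have hNU := noUnique_of_mul_eq_zero (res_mul_eq_zero hmem b₀ h)
  have hcA : (resL H a α).coeff.support.card ≤ 3 := (card_resL_le _ _ _).trans hcard
  have hA1 : (1 : H) ∈ (resL H a α).coeff.support := by
    rw [Finsupp.mem_support_iff, resL_coeff]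
    simpa using Finsupp.mem_support_iff.mp ha
  have hAs : (⟨a⁻¹ * b, hs⟩ : H) ∈ (resL H a α).coeff.support := by
    rw [Finsupp.mem_support_iff, resL_coeff]
    simpa using Finsupp.mem_support_iff.mp hb
  have hB1 : (1 : H) ∈ (resR H b₀ β).coeff.support := by
    rw [Finsupp.mem_support_iff, resR_coeff]
    simpa using Finsupp.mem_support_iff.mp hb₀
  have b1 := quasi_bound hcA hNU ⟨1, hB1⟩ hq hh hA1 hAs
  have b2 := quasi_bound hcA hNU ⟨1, hB1⟩ hq hh hAs hA1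
  rw [inv_one, one_mul] at b1
  rw [mul_one, homog_inv hq hh] at b2
  exact abs_le.mpr ⟨by linarith, b1⟩

/-- For any number of terms: the largest value of a quasimorphism on the support of a left zero
divisor is attained, up to twice the defect, at a second point of the support. -/
theorem top_gap_left {φ : G → ℝ} {Δ : ℝ} (hq : ∀ x y : G, |φ (x * y) - φ x - φ y| ≤ Δ)
    {α β : MonoidAlgebra K G} (hβ : β ≠ 0) (h : α * β = 0) {a₀ : G}
    (ha₀ : a₀ ∈ α.coeff.support) :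
    ∃ a₁ ∈ α.coeff.support, a₁ ≠ a₀ ∧ ((∀ a ∈ α.coeff.support, φ a ≤ φ a₀) → φ a₀ ≤ φ a₁ + 2 * Δ) := by
  classical
  obtain ⟨b₀, hb₀, hmax⟩ := Finset.exists_max_image β.coeff.support φ (support_nonempty_of_ne hβ)
  obtain ⟨a', ha', b', hb', hne, he⟩ := noUnique_of_mul_eq_zero h a₀ ha₀ b₀ hb₀
  refine ⟨a', ha', hne, fun _ => ?_⟩
  have q1 := abs_le.mp (hq a₀ b₀)
  have q2 := abs_le.mp (hq a' b')
  rw [he] at q2
  linarith [hmax b' hb', q1.1, q1.2, q2.1, q2.2]

/-- The same for right zero divisors. -/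
theorem top_gap_right {φ : G → ℝ} {Δ : ℝ} (hq : ∀ x y : G, |φ (x * y) - φ x - φ y| ≤ Δ)
    {α β : MonoidAlgebra K G} (hβ : β ≠ 0) (h : β * α = 0) {a₀ : G}
    (ha₀ : a₀ ∈ α.coeff.support) :
    ∃ a₁ ∈ α.coeff.support, a₁ ≠ a₀ ∧ ((∀ a ∈ α.coeff.support, φ a ≤ φ a₀) → φ a₀ ≤ φ a₁ + 2 * Δ) := by
  classical
  obtain ⟨b₀, hb₀, hmax⟩ := Finset.exists_max_image β.coeff.support φ (support_nonempty_of_ne hβ)
  obtain ⟨b', hb', a', ha', hne, he⟩ := noUnique_of_mul_eq_zero h b₀ hb₀ a₀ ha₀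
  have hne' : a' ≠ a₀ := by
    intro h0
    rw [h0] at he
    exact hne (mul_right_cancel he)
  refine ⟨a', ha', hne', fun _ => ?_⟩
  have q1 := abs_le.mp (hq b₀ a₀)
  have q2 := abs_le.mp (hq b' a')
  rw [he] at q2
  linarith [hmax b' hb', q1.1, q1.2, q2.1, q2.2]

/-- A high power of an element on which a homogeneous quasimorphism is positive dominates any
fixed element of the group algebra, so the sum is not a zero divisor. -/
theorem dominant_power {φ : G → ℝ} {Δ : ℝ} (hq : ∀ x y : G, |φ (x * y) - φ x - φ y| ≤ Δ)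
    (hh : ∀ (x : G) (n : ℕ), φ (x ^ n) = n * φ x) {g : G} (hg : 0 < φ g)
    (γ : MonoidAlgebra K G) {c : K} (hc : c ≠ 0) :
    ∃ N₀ : ℕ, ∀ N : ℕ, N₀ ≤ N → ∀ β : MonoidAlgebra K G,
      ((MonoidAlgebra.single (g ^ N) c + γ) * β = 0 → β = 0) ∧
      (β * (MonoidAlgebra.single (g ^ N) c + γ) = 0 → β = 0) := by
  classical
  have hΔ : 0 ≤ Δ := (abs_nonneg _).trans (hq 1 1)
  set M : ℝ := ∑ a ∈ γ.coeff.support, |φ a| with hM
  have hMb : ∀ a ∈ γ.coeff.support, φ a ≤ M := fun a ha =>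
    (le_abs_self _).trans (Finset.single_le_sum (f := fun a => |φ a|)
      (fun _ _ => abs_nonneg _) ha)
  obtain ⟨N₀, hN₀⟩ := exists_nat_gt ((M + 2 * Δ) / φ g)
  rw [div_lt_iff₀ hg] at hN₀
  refine ⟨N₀, fun N hN β => ?_⟩
  have hlarge : M + 2 * Δ < φ (g ^ N) := by
    rw [hh]
    have : (N₀ : ℝ) ≤ N := by exact_mod_cast hN
    nlinarith
  set α := MonoidAlgebra.single (g ^ N) c + γ with hα
  have hnot : g ^ N ∉ γ.coeff.support := fun hmem => by
    have := hMb _ hmem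
    linarith
  have hcoef : ∀ y, α.coeff y = (if y = g ^ N then c else 0) + γ.coeff y := by
    intro y
    simp only [hα, coeff_add, coeff_single, Finsupp.add_apply, Finsupp.single_apply]
    by_cases hy : y = g ^ N
    · simp [hy]
    · simp [hy, Ne.symm hy]
  have htop : g ^ N ∈ α.coeff.support := by
    rw [Finsupp.mem_support_iff, hcoef]
    have : γ.coeff (g ^ N) = 0 := by
      simpa using hnot
    simp [this, hc]
  have hsupp : ∀ a ∈ α.coeff.support, a ≠ g ^ N → a ∈ γ.coeff.support := by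
    intro a ha hne
    rw [Finsupp.mem_support_iff, hcoef] at ha
    rw [Finsupp.mem_support_iff]
    simpa [hne] using ha
  have hall : ∀ a ∈ α.coeff.support, φ a ≤ φ (g ^ N) := by
    intro a ha
    by_cases hne : a = g ^ N
    · rw [hne]
    · have := hMb a (hsupp a ha hne)
      linarith
  constructor
  · intro h
    by_contra hβ
    obtain ⟨a₁, ha₁, hne, hgap⟩ := top_gap_left hq hβ h htop
    have := hgap hall
    have := hMb a₁ (hsupp a₁ ha₁ hne)
    linarith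
  · intro h
    by_contra hβ
    obtain ⟨a₁, ha₁, hne, hgap⟩ := top_gap_right hq hβ h htop
    have := hgap hall
    have := hMb a₁ (hsupp a₁ ha₁ hne)
    linarith

/-- The chain step behind the two term criterion. -/
theorem top_two_chain (ht : ∀ g : G, g ≠ 1 → ¬ IsOfFinOrder g) {φ : G → ℝ} {Δ : ℝ}
    (hq : ∀ x y : G, |φ (x * y) - φ x - φ y| ≤ Δ)
    (hh : ∀ (x : G) (n : ℕ), φ (x ^ n) = n * φ x) {α β : MonoidAlgebra K G} (hβ : β ≠ 0)
    (h : α * β = 0) {a₀ a₁ : G} (h0 : a₀ ∈ α.coeff.support) (hne : a₀ ≠ a₁)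
    (hs : 0 ≤ φ (a₁⁻¹ * a₀))
    (hgap : ∀ a ∈ α.coeff.support, a ≠ a₀ → a ≠ a₁ → φ a + 3 * Δ < φ a₀) : False := by
  classical
  obtain ⟨b₀, hb₀, hmax⟩ := Finset.exists_max_image β.coeff.support φ (support_nonempty_of_ne hβ)
  set s := a₁⁻¹ * a₀ with hsdef
  have hNU := noUnique_of_mul_eq_zero h
  have hchain : ∀ k : ℕ, s ^ k * b₀ ∈ β.coeff.support := by
    intro k
    induction k with
    | zero => simpa using hb₀
    | succ k ih =>
      obtain ⟨a', ha', b', hb', hne', he⟩ := hNU a₀ h0 _ ih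
      have q0 := abs_le.mp (hq (s ^ k) b₀)
      rw [hh] at q0
      have hk : 0 ≤ (k : ℝ) * φ s := mul_nonneg (Nat.cast_nonneg _) hs
      have q1 := abs_le.mp (hq a₀ (s ^ k * b₀))
      have q2 := abs_le.mp (hq a' b')
      rw [he] at q2
      have hb'm := hmax b' hb'
      have ha1 : a' = a₁ := by
        by_contra hn
        have := hgap a' ha' hne' hn
        linarith [q0.1, q0.2, q1.1, q1.2, q2.1, q2.2]
      have : b' = s ^ (k + 1) * b₀ := by
        rw [ha1] at he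
        rw [pow_succ', mul_assoc, hsdef, mul_assoc, ← he, inv_mul_cancel_left]
      rw [← this]
      exact hb'
  have hfin : IsOfFinOrder s := by
    by_contra hno
    have hinj : Function.Injective (fun k : ℕ => s ^ k * b₀) := by
      intro i j hij
      exact (injective_pow_iff_not_isOfFinOrder.mpr hno) (mul_right_cancel hij)
    exact Set.infinite_of_injective_forall_mem hinj
      (fun k => (Finset.mem_coe.mpr (hchain k))) β.coeff.support.finite_toSet
  have hs1 : s ≠ 1 := by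
    intro h1
    rw [hsdef, inv_mul_eq_one] at h1
    exact hne h1.symm
  exact ht s hs1 hfin

/-- In a torsion-free group a left zero divisor cannot have exactly two terms on top of a
homogeneous quasimorphism with a gap larger than three times the defect. -/
theorem top_two_left (ht : ∀ g : G, g ≠ 1 → ¬ IsOfFinOrder g) {φ : G → ℝ} {Δ : ℝ}
    (hq : ∀ x y : G, |φ (x * y) - φ x - φ y| ≤ Δ)
    (hh : ∀ (x : G) (n : ℕ), φ (x ^ n) = n * φ x) {α β : MonoidAlgebra K G} (hβ : β ≠ 0)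
    (h : α * β = 0) {a₀ a₁ : G} (h0 : a₀ ∈ α.coeff.support) (h1 : a₁ ∈ α.coeff.support)
    (hne : a₀ ≠ a₁)
    (hgap : ∀ a ∈ α.coeff.support, a ≠ a₀ → a ≠ a₁ → φ a + 3 * Δ < φ a₀ ∧ φ a + 3 * Δ < φ a₁) :
    False := by
  by_cases hs : 0 ≤ φ (a₁⁻¹ * a₀)
  · exact top_two_chain ht hq hh hβ h h0 hne hs (fun a ha e0 e1 => (hgap a ha e0 e1).1)
  · refine top_two_chain ht hq hh hβ h h1 hne.symm ?_ (fun a ha e1 e0 => (hgap a ha e0 e1).2)
    have e : a₀⁻¹ * a₁ = (a₁⁻¹ * a₀)⁻¹ := by group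
    rw [e, homog_inv hq hh]
    linarith

/-- The chain step for right zero divisors. -/
theorem top_two_chain_right (ht : ∀ g : G, g ≠ 1 → ¬ IsOfFinOrder g) {φ : G → ℝ} {Δ : ℝ}
    (hq : ∀ x y : G, |φ (x * y) - φ x - φ y| ≤ Δ)
    (hh : ∀ (x : G) (n : ℕ), φ (x ^ n) = n * φ x) {α β : MonoidAlgebra K G} (hβ : β ≠ 0)
    (h : β * α = 0) {a₀ a₁ : G} (h0 : a₀ ∈ α.coeff.support) (hne : a₀ ≠ a₁)
    (hs : 0 ≤ φ (a₀ * a₁⁻¹))
    (hgap : ∀ a ∈ α.coeff.support, a ≠ a₀ → a ≠ a₁ → φ a + 3 * Δ < φ a₀) : False := by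
  classical
  obtain ⟨b₀, hb₀, hmax⟩ := Finset.exists_max_image β.coeff.support φ (support_nonempty_of_ne hβ)
  set s := a₀ * a₁⁻¹ with hsdef
  have hNU := noUnique_of_mul_eq_zero h
  have hchain : ∀ k : ℕ, b₀ * s ^ k ∈ β.coeff.support := by
    intro k
    induction k with
    | zero => simpa using hb₀
    | succ k ih =>
      obtain ⟨b', hb', a', ha', hne', he⟩ := hNU _ ih a₀ h0
      have hne2 : a' ≠ a₀ := by
        intro h0'
        rw [h0'] at he
        exact hne' (mul_right_cancel he)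
      have q0 := abs_le.mp (hq b₀ (s ^ k))
      rw [hh] at q0
      have hk : 0 ≤ (k : ℝ) * φ s := mul_nonneg (Nat.cast_nonneg _) hs
      have q1 := abs_le.mp (hq (b₀ * s ^ k) a₀)
      have q2 := abs_le.mp (hq b' a')
      rw [he] at q2
      have hb'm := hmax b' hb'
      have ha1 : a' = a₁ := by
        by_contra hn
        have := hgap a' ha' hne2 hn
        linarith [q0.1, q0.2, q1.1, q1.2, q2.1, q2.2]
      have : b' = b₀ * s ^ (k + 1) := by
        rw [ha1] at he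
        have e2 : b' = b' * a₁ * a₁⁻¹ := by group
        rw [e2, he, pow_succ, hsdef]
        group
      rw [← this]
      exact hb'
  have hfin : IsOfFinOrder s := by
    by_contra hno
    have hinj : Function.Injective (fun k : ℕ => b₀ * s ^ k) := by
      intro i j hij
      exact (injective_pow_iff_not_isOfFinOrder.mpr hno) (mul_left_cancel hij)
    exact Set.infinite_of_injective_forall_mem hinj
      (fun k => (Finset.mem_coe.mpr (hchain k))) β.coeff.support.finite_toSet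
  have hs1 : s ≠ 1 := by
    intro h1
    rw [hsdef, mul_inv_eq_one] at h1
    exact hne h1
  exact ht s hs1 hfin

theorem top_two_right (ht : ∀ g : G, g ≠ 1 → ¬ IsOfFinOrder g) {φ : G → ℝ} {Δ : ℝ}
    (hq : ∀ x y : G, |φ (x * y) - φ x - φ y| ≤ Δ)
    (hh : ∀ (x : G) (n : ℕ), φ (x ^ n) = n * φ x) {α β : MonoidAlgebra K G} (hβ : β ≠ 0)
    (h : β * α = 0) {a₀ a₁ : G} (h0 : a₀ ∈ α.coeff.support) (h1 : a₁ ∈ α.coeff.support)
    (hne : a₀ ≠ a₁)
    (hgap : ∀ a ∈ α.coeff.support, a ≠ a₀ → a ≠ a₁ → φ a + 3 * Δ < φ a₀ ∧ φ a + 3 * Δ < φ a₁) :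
    False := by
  by_cases hs : 0 ≤ φ (a₀ * a₁⁻¹)
  · exact top_two_chain_right ht hq hh hβ h h0 hne hs (fun a ha e0 e1 => (hgap a ha e0 e1).1)
  · refine top_two_chain_right ht hq hh hβ h h1 hne.symm ?_ (fun a ha e1 e0 => (hgap a ha e0 e1).2)
    have e : a₁ * a₀⁻¹ = (a₀ * a₁⁻¹)⁻¹ := by group
    rw [e, homog_inv hq hh]
    linarith

end Algebra

end Vale.Agent.Lib.P201
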