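import Mathlib
import Vale.Agent.Lib.P201.Quasi

noncomputable section

namespace Vale.Agent.Lib.P201

open MonoidAlgebra

universe u v w

section

variable {K : Type w} [Field K] {G : Type u} [Group G]

/-- In a torsion-free group the part of the support of a left zero divisor above a gap larger
than three times the defect has at least three elements. -/
theorem upper_part_three (ht : ∀ g : G, g ≠ 1 → ¬ IsOfFinOrder g) {φ : G → ℝ} {Δ : ℝ}
    (hq : ∀ x y : G, |φ (x * y) - φ x - φ y| ≤ Δ)
    (hh : ∀ (x : G) (n : ℕ), φ (x ^ n) = n * φ x) {α β : MonoidAlgebra K G} (hβ : β ≠ 0)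
    (h : α * β = 0) {t w : ℝ} (hw : 3 * Δ < w)
    (hsplit : ∀ a ∈ α.coeff.support, φ a ≤ t ∨ t + w ≤ φ a)
    {b : G} (hb : b ∈ α.coeff.support) (htop : t + w ≤ φ b) :
    3 ≤ (α.coeff.support.filter (fun a => t + w ≤ φ a)).card := by
  classical
  have hΔ : 0 ≤ Δ := (abs_nonneg _).trans (hq 1 1)
  by_contra hcard
  push Not at hcard
  set U := α.coeff.support.filter (fun a => t + w ≤ φ a) with hU
  have hbU : b ∈ U := Finset.mem_filter.mpr ⟨hb, htop⟩
  have hcases : U.card = 1 ∨ U.card = 2 := by
    have : 0 < U.card := Finset.card_pos.mpr ⟨b, hbU⟩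
    omega
  have hmemU : ∀ a, a ∈ U ↔ a ∈ α.coeff.support ∧ t + w ≤ φ a := fun a => Finset.mem_filter
  rcases hcases with h1 | h2
  · obtain ⟨a₀, ha₀⟩ := Finset.card_eq_one.mp h1
    have hb0 : b = a₀ := by
      have := hbU
      rw [ha₀, Finset.mem_singleton] at this
      exact this
    subst hb0
    obtain ⟨a₁, ha₁, hne, hg⟩ := top_gap_left hq hβ h hb
    have hlow : φ a₁ ≤ t := by
      rcases hsplit a₁ ha₁ with hl | hu
      · exact hl
      · exfalso
        have : a₁ ∈ U := (hmemU a₁).mpr ⟨ha₁, hu⟩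
        rw [ha₀, Finset.mem_singleton] at this
        exact hne this
    have hall : ∀ a ∈ α.coeff.support, φ a ≤ φ b := by
      intro a ha
      rcases hsplit a ha with hl | hu
      · linarith
      · have : a ∈ U := (hmemU a).mpr ⟨ha, hu⟩
        rw [ha₀, Finset.mem_singleton] at this
        rw [this]
    have := hg hall
    linarith
  · obtain ⟨a₀, a₁, hne, ha⟩ := Finset.card_eq_two.mp h2
    have m0 : a₀ ∈ U := by simp [ha]
    have m1 : a₁ ∈ U := by simp [ha]
    obtain ⟨s0, t0⟩ := (hmemU a₀).mp m0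
    obtain ⟨s1, t1⟩ := (hmemU a₁).mp m1
    refine top_two_left ht hq hh hβ h s0 s1 hne ?_
    intro c hc e0 e1
    have hlow : φ c ≤ t := by
      rcases hsplit c hc with hl | hu
      · exact hl
      · exfalso
        have : c ∈ U := (hmemU c).mpr ⟨hc, hu⟩
        rw [ha] at this
        simp only [Finset.mem_insert, Finset.mem_singleton] at this
        rcases this with h3 | h3
        · exact e0 h3
        · exact e1 h3
    constructor <;> linarith

/-- A split of the support of a left zero divisor in a torsion-free group, with a gap larger than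
three times the defect, needs at least six terms. -/
theorem six_of_split (ht : ∀ g : G, g ≠ 1 → ¬ IsOfFinOrder g) {φ : G → ℝ} {Δ : ℝ}
    (hq : ∀ x y : G, |φ (x * y) - φ x - φ y| ≤ Δ)
    (hh : ∀ (x : G) (n : ℕ), φ (x ^ n) = n * φ x) {α β : MonoidAlgebra K G} (hβ : β ≠ 0)
    (h : α * β = 0) {t w : ℝ} (hw : 3 * Δ < w)
    (hsplit : ∀ a ∈ α.coeff.support, φ a ≤ t ∨ t + w ≤ φ a)
    {a b : G} (ha : a ∈ α.coeff.support) (hb : b ∈ α.coeff.support) (hlow : φ a ≤ t)
    (htop : t + w ≤ φ b) : 6 ≤ α.coeff.support.card := by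
  classical
  have hU := upper_part_three ht hq hh hβ h hw hsplit hb htop
  -- the same for the opposite quasimorphism
  have hq' : ∀ x y : G, |(fun z => - φ z) (x * y) - (fun z => - φ z) x - (fun z => - φ z) y| ≤ Δ := by
    intro x y
    have := hq x y
    have e : - φ (x * y) - - φ x - - φ y = - (φ (x * y) - φ x - φ y) := by ring
    simp only []
    rw [e, abs_neg]
    exact this
  have hh' : ∀ (x : G) (n : ℕ), (fun z => - φ z) (x ^ n) = n * (fun z => - φ z) x := by
    intro x n
    simp only []
    rw [hh]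
    ring
  have hsplit' : ∀ c ∈ α.coeff.support,
      (fun z => - φ z) c ≤ - t - w ∨ - t - w + w ≤ (fun z => - φ z) c := by
    intro c hc
    simp only []
    rcases hsplit c hc with hl | hu
    · right
      linarith
    · left
      linarith
  have hL : 3 ≤ (α.coeff.support.filter (fun c => - t - w + w ≤ - φ c)).card :=
    upper_part_three ht hq' hh' hβ h hw hsplit' ha (by show - t - w + w ≤ - φ a; linarith)
  have hdisj : Disjoint (α.coeff.support.filter (fun c => t + w ≤ φ c))
      (α.coeff.support.filter (fun c => - t - w + w ≤ - φ c)) := by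
    rw [Finset.disjoint_left]
    intro c h1 h2
    have h3 := (Finset.mem_filter.mp h1).2
    have h4 := (Finset.mem_filter.mp h2).2
    have hw0 : 0 < w := by
      have hΔ : 0 ≤ Δ := (abs_nonneg _).trans (hq 1 1)
      linarith
    linarith
  have hsum := Finset.card_union_of_disjoint hdisj
  have hsub := Finset.card_le_card (Finset.union_subset
    (Finset.filter_subset (fun c => t + w ≤ φ c) α.coeff.support)
    (Finset.filter_subset (fun c => - t - w + w ≤ - φ c) α.coeff.support))
  omega

/-- At most five terms in a torsion-free group: a homogeneous quasimorphism has spread at most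
twelve times its defect on the support of a left zero divisor. -/
theorem spread_five (ht : ∀ g : G, g ≠ 1 → ¬ IsOfFinOrder g) {φ : G → ℝ} {Δ : ℝ}
    (hq : ∀ x y : G, |φ (x * y) - φ x - φ y| ≤ Δ)
    (hh : ∀ (x : G) (n : ℕ), φ (x ^ n) = n * φ x) {α β : MonoidAlgebra K G} (hβ : β ≠ 0)
    (h : α * β = 0) (hcard : α.coeff.support.card ≤ 5)
    {a b : G} (ha : a ∈ α.coeff.support) (hb : b ∈ α.coeff.support) :
    φ b - φ a ≤ 12 * Δ := by
  classical
  by_contra hcon
  push Not at hcon
  set L := φ b - φ a with hL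
  set w := L / 4 with hwdef
  have hw : 3 * Δ < w := by rw [hwdef]; linarith
  have hΔ : 0 ≤ Δ := (abs_nonneg _).trans (hq 1 1)
  have hw0 : 0 < w := by linarith
  have hb' : φ b = φ a + 4 * w := by rw [hwdef, hL]; ring
  -- in each of the four open intervals there is a value of the quasimorphism
  have hval : ∀ i : ℕ, i < 4 → ∃ c ∈ α.coeff.support,
      φ a + i * w < φ c ∧ φ c < φ a + (i + 1) * w := by
    intro i hi
    by_contra hno
    push Not at hno
    have hsplit : ∀ c ∈ α.coeff.support, φ c ≤ φ a + i * w ∨ φ a + i * w + w ≤ φ c := by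
      intro c hc
      by_cases h1 : φ c ≤ φ a + i * w
      · exact Or.inl h1
      · right
        have := hno c hc (lt_of_not_ge h1)
        linarith
    have hi' : (0 : ℝ) ≤ i := Nat.cast_nonneg _
    have hi'' : (i : ℝ) + 1 ≤ 4 := by
      have : i + 1 ≤ 4 := hi
      exact_mod_cast this
    have h6 := six_of_split ht hq hh hβ h hw hsplit ha hb
      (by nlinarith) (by nlinarith)
    omega
  obtain ⟨c₀, m₀, l₀, u₀⟩ := hval 0 (by norm_num)
  obtain ⟨c₁, m₁, l₁, u₁⟩ := hval 1 (by norm_num)
  obtain ⟨c₂, m₂, l₂, u₂⟩ := hval 2 (by norm_num)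
  obtain ⟨c₃, m₃, l₃, u₃⟩ := hval 3 (by norm_num)
  norm_num at l₀ u₀ l₁ u₁ l₂ u₂ l₃ u₃
  -- six different values
  have hsub : ({φ a, φ c₀, φ c₁, φ c₂, φ c₃, φ b} : Finset ℝ) ⊆ α.coeff.support.image φ := by
    intro x hx
    simp only [Finset.mem_insert, Finset.mem_singleton] at hx
    rcases hx with rfl | rfl | rfl | rfl | rfl | rfl
    · exact Finset.mem_image_of_mem φ ha
    · exact Finset.mem_image_of_mem φ m₀
    · exact Finset.mem_image_of_mem φ m₁
    · exact Finset.mem_image_of_mem φ m₂
    · exact Finset.mem_image_of_mem φ m₃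
    · exact Finset.mem_image_of_mem φ hb
  have hcard6 : ({φ a, φ c₀, φ c₁, φ c₂, φ c₃, φ b} : Finset ℝ).card = 6 := by
    have n1 : φ a < φ c₀ := by linarith
    have n2 : φ c₀ < φ c₁ := by linarith
    have n3 : φ c₁ < φ c₂ := by linarith
    have n4 : φ c₂ < φ c₃ := by linarith
    have n5 : φ c₃ < φ b := by linarith
    rw [Finset.card_insert_of_notMem, Finset.card_insert_of_notMem, Finset.card_insert_of_notMem,
      Finset.card_insert_of_notMem, Finset.card_insert_of_notMem, Finset.card_singleton]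
    all_goals
      simp only [Finset.mem_insert, Finset.mem_singleton, not_or]
    · exact n5.ne
    · exact ⟨n4.ne, (n4.trans n5).ne⟩
    · exact ⟨n3.ne, (n3.trans n4).ne, ((n3.trans n4).trans n5).ne⟩
    · exact ⟨n2.ne, (n2.trans n3).ne, ((n2.trans n3).trans n4).ne,
        (((n2.trans n3).trans n4).trans n5).ne⟩
    · exact ⟨n1.ne, (n1.trans n2).ne, ((n1.trans n2).trans n3).ne,
        (((n1.trans n2).trans n3).trans n4).ne, ((((n1.trans n2).trans n3).trans n4).trans n5).ne⟩
  have h1 := Finset.card_le_card hsub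
  have h2 := Finset.card_image_le (s := α.coeff.support) (f := φ)
  omega

/-- The statement for the subgroup generated by the quotients. -/
theorem quasi_five (ht : ∀ g : G, g ≠ 1 → ¬ IsOfFinOrder g) {α β : MonoidAlgebra K G}
    (hβ : β ≠ 0) (h : α * β = 0) (hcard : α.coeff.support.card ≤ 5)
    (φ : diffSubgroup (α.coeff.support : Set G) → ℝ) (Δ : ℝ)
    (hq : ∀ x y, |φ (x * y) - φ x - φ y| ≤ Δ)
    (hh : ∀ (x : diffSubgroup (α.coeff.support : Set G)) (n : ℕ), φ (x ^ n) = n * φ x)
    {a b : G} (ha : a ∈ α.coeff.support) (hb : b ∈ α.coeff.support)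
    (hs : a⁻¹ * b ∈ diffSubgroup (α.coeff.support : Set G)) :
    |φ ⟨a⁻¹ * b, hs⟩| ≤ 12 * Δ := by
  classical
  obtain ⟨b₀, hb₀⟩ := support_nonempty_of_ne hβ
  set H := diffSubgroup (α.coeff.support : Set G) with hH
  have hmem : ∀ x ∈ α.coeff.support, a⁻¹ * x ∈ H := fun x hx =>
    mem_diffSubgroup (by exact_mod_cast ha) (by exact_mod_cast hx)
  have hz := res_mul_eq_zero hmem b₀ h
  have hcA : (resL H a α).coeff.support.card ≤ 5 := (card_resL_le _ _ _).trans hcard
  have hβ' : resR H b₀ β ≠ 0 := resR_ne_zero hb₀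
  have ht' : ∀ g : H, g ≠ 1 → ¬ IsOfFinOrder g := by
    intro g hg hfo
    apply ht (g : G)
    · intro h0
      exact hg (Subtype.ext h0)
    · exact MonoidHom.isOfFinOrder H.subtype hfo
  have hA1 : (1 : H) ∈ (resL H a α).coeff.support := by
    rw [Finsupp.mem_support_iff, resL_coeff]
    simpa using Finsupp.mem_support_iff.mp ha
  have hAs : (⟨a⁻¹ * b, hs⟩ : H) ∈ (resL H a α).coeff.support := by
    rw [Finsupp.mem_support_iff, resL_coeff]
    simpa using Finsupp.mem_support_iff.mp hb
  have b1 := spread_five ht' hq hh hβ' hz hcA hA1 hAs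
  have b2 := spread_five ht' hq hh hβ' hz hcA hAs hA1
  rw [homog_one hh] at b1 b2
  exact abs_le.mpr ⟨by linarith, by linarith⟩

end

end Vale.Agent.Lib.P201
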